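import Vale.Agent.P290.H220.Glob
import Vale.Agent.P290.H342.DivTh

/-!
# P290 / H220: intersection numbers of norm functions, the fields `int_*` of helper342's `DivTh`
-/

set_option linter.unusedVariables false
set_option linter.unusedSectionVars false

open scoped Manifold ContDiff ComplexConjugate Matrix
open MeasureTheory Set Filter Topology Metric

noncomputable section

namespace Vale.Agent.P290.H220

open Vale.Agent.P267.FL Vale.Agent.P267.H757 Vale.Agent.P267.H332
open Vale.Agent.P290.H342 (Sing)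

universe u

variable {X : Type u} [TopologicalSpace X] [ChartedSpace C2 X] [IsManifold 𝓘(ℂ, C2) ω X]
  [T2Space X] [CompactSpace X]

/-- a holomorphic function is `O(1)`; `O(‖z - p‖)` if it vanishes; `O(‖z - p‖²)` if moreover its
differential vanishes -/
theorem isBigO_one {f : C2 → ℂ} {p : C2} (hf : AnalyticAt ℂ f p) (h0 : f p = 0) :
    f =O[𝓝 p] fun z => ‖z - p‖ ^ 1 := by
  have := hf.differentiableAt.isBigO_sub
  simp only [h0, sub_zero] at this
  simpa using this.norm_right

theorem isBigO_two {f : C2 → ℂ} {p : C2} (hf : AnalyticAt ℂ f p) (h0 : f p = 0)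
    (h1 : fderiv ℂ f p = 0) : f =O[𝓝 p] fun z => ‖z - p‖ ^ 2 := by
  obtain ⟨q, hq⟩ := hf
  have h := hq.isBigO_sub_partialSum_pow 2
  have hp : ∀ y, q.partialSum 2 y = 0 := by
    intro y
    rw [FormalMultilinearSeries.partialSum, Finset.sum_range_succ, Finset.sum_range_one]
    have e0 : q 0 (fun _ => y) = f p := hq.coeff_zero _
    have e1 : q 1 (fun _ => y) = 0 := by
      have h2 := hq.fderiv_eq
      rw [h1] at h2
      have h3 := congrArg (fun L : C2 →L[ℂ] ℂ => L y) h2
      simp only [zero_apply, continuousMultilinearCurryFin1_apply] at h3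
      rw [h3]
      congr 1
    rw [e0, e1, h0, add_zero]
  simp only [hp, sub_zero] at h
  have ht : Tendsto (fun z => z - p) (𝓝 p) (𝓝 0) := by
    have : ContinuousAt (fun z => z - p) p := by fun_prop
    simpa [ContinuousAt] using this
  have := h.comp_tendsto ht
  simpa [Function.comp_def] using this

theorem analyticAt_chart {N : X → ℝ} {U : Set X} {g : X → ℂ} {φ : X → ℝ} (h : LocRep C2 N U g φ)
    {p : X} (hp : p ∈ U) :
    AnalyticAt ℂ (fun z => g ((chartAt C2 p).symm z)) (chartAt C2 p p) := by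
  refine Vale.Agent.P268.analyticOnNhd_of_differentiableOn (lr_isOpen h (chartAt C2 p))
    (differentiableOn_chart (chart_mem_atlas C2 p) h.hol) _ ⟨mem_chart_target C2 p, ?_⟩
  rwa [mem_preimage, (chartAt C2 p).left_inv (mem_chart_source C2 p)]

theorem ordGe_one {N : X → ℝ} (hN : IsNormFn C2 N) {p : X} (h0 : N p = 0) : OrdGe N p 1 := by
  obtain ⟨U, g, φ, hU, h⟩ := hN p
  refine ⟨U, g, φ, hU, h, isBigO_one (analyticAt_chart h hU) ?_⟩
  rw [(chartAt C2 p).left_inv (mem_chart_source C2 p)]
  exact (h.eq_zero_iff hU).1 h0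

theorem ordGe_two {N : X → ℝ} {p : X} (hs : Sing C2 N p) : OrdGe N p 2 := by
  obtain ⟨U, g, φ, hU, h, h0, h1⟩ := hs
  refine ⟨U, g, φ, hU, h, isBigO_two (analyticAt_chart h hU) ?_ ?_⟩
  · rw [(chartAt C2 p).left_inv (mem_chart_source C2 p)]
    exact h0
  · have hg : MDifferentiableAt 𝓘(ℂ, C2) 𝓘(ℂ) g p :=
      (h.hol p hU).mdifferentiableAt (h.isOpen.mem_nhds hU)
    have h2 := hg.mfderiv
    rw [h1] at h2
    have h3 : writtenInExtChartAt 𝓘(ℂ, C2) 𝓘(ℂ) p g = fun z => g ((chartAt C2 p).symm z) := by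
      funext z
      simp only [mfld_simps]
      rfl
    rw [h3] at h2
    simp only [mfld_simps, fderivWithin_univ] at h2
    exact h2.symm

section fields

theorem nIP_nonneg {N N' : X → ℝ} (hN : IsNormFn C2 N) (hN' : IsNormFn C2 N')
    (hf : ({x | N x = 0} ∩ {x | N' x = 0}).Finite) : 0 ≤ (nIP N N').re := by
  have := sum_le_nIP hN hN' hf.toFinset (fun x h h' => hf.mem_toFinset.2 ⟨h, h'⟩)
    (fun _ => 1) (fun _ => 1) (fun p hp => ordGe_one hN (hf.mem_toFinset.1 hp).1)
    (fun p hp => ordGe_one hN' (hf.mem_toFinset.1 hp).2)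
  refine le_trans ?_ this
  exact Finset.sum_nonneg fun _ _ => by positivity

theorem le_nIP {N N' : X → ℝ} (hN : IsNormFn C2 N) (hN' : IsNormFn C2 N')
    (hf : ({x | N x = 0} ∩ {x | N' x = 0}).Finite) {p : X} (hp : N p = 0) (hp' : N' p = 0)
    {a b : ℕ} (ha : OrdGe N p a) (hb : OrdGe N' p b) : (a * b : ℝ) ≤ (nIP N N').re := by
  classical
  have := sum_le_nIP hN hN' hf.toFinset (fun x h h' => hf.mem_toFinset.2 ⟨h, h'⟩)
    (fun q => if q = p then a else 1) (fun q => if q = p then b else 1)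
    (fun q hq => by
      by_cases h : q = p
      · simp only [h, if_true]; exact ha
      · simp only [h, if_false]; exact ordGe_one hN (hf.mem_toFinset.1 hq).1)
    (fun q hq => by
      by_cases h : q = p
      · simp only [h, if_true]; exact hb
      · simp only [h, if_false]; exact ordGe_one hN' (hf.mem_toFinset.1 hq).2)
  refine le_trans ?_ this
  have hmem : p ∈ hf.toFinset := hf.mem_toFinset.2 ⟨hp, hp'⟩
  refine le_trans ?_ (Finset.single_le_sum (f := fun q =>
    (((if q = p then a else 1 : ℕ) : ℝ) * ((if q = p then b else 1 : ℕ) : ℝ)))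
    (fun _ _ => by positivity) hmem)
  simp

theorem one_le_nIP {N N' : X → ℝ} (hN : IsNormFn C2 N) (hN' : IsNormFn C2 N')
    (hf : ({x | N x = 0} ∩ {x | N' x = 0}).Finite) (p : X) (hp : N p = 0) (hp' : N' p = 0) :
    1 ≤ (nIP N N').re := by
  have := le_nIP hN hN' hf hp hp' (ordGe_one hN hp) (ordGe_one hN' hp')
  simpa using this

theorem sing_zero {N : X → ℝ} {p : X} (h : Sing C2 N p) : N p = 0 := by
  obtain ⟨U, g, φ, hU, k, h0, -⟩ := h
  exact (k.eq_zero_iff hU).2 h0

theorem two_le_nIP {N N' : X → ℝ} (hN : IsNormFn C2 N) (hN' : IsNormFn C2 N')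
    (hf : ({x | N x = 0} ∩ {x | N' x = 0}).Finite) (p : X) (hp : Sing C2 N p) (hp' : N' p = 0) :
    2 ≤ (nIP N N').re := by
  have := le_nIP hN hN' hf (sing_zero hp) hp' (ordGe_two hp) (ordGe_one hN' hp')
  simpa using this

theorem four_le_nIP {N N' : X → ℝ} (hN : IsNormFn C2 N) (hN' : IsNormFn C2 N')
    (hf : ({x | N x = 0} ∩ {x | N' x = 0}).Finite) (p : X) (hp : Sing C2 N p)
    (hp' : Sing C2 N' p) : 4 ≤ (nIP N N').re := by
  have := le_nIP hN hN' hf (sing_zero hp) (sing_zero hp') (ordGe_two hp)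
    (ordGe_two hp')
  norm_num at this
  exact this

end fields

/-- no common zeros: the intersection number vanishes (no local theory needed) -/
theorem nIP_zero {N N' : X → ℝ} (hN : IsNormFn C2 N) (hN' : IsNormFn C2 N')
    (h : ∀ x, N x = 0 → N' x ≠ 0) : nIP N N' = 0 := by
  obtain ⟨c, hc, hcO⟩ : ∃ c : ℝ, 0 < c ∧ ∀ x, c < N x ∨ c < N' x := by
    have hm : ContinuousOn (fun x => max (N x) (N' x)) univ :=
      (hN.continuous.max hN'.continuous).continuousOn
    have hpos : ∀ x ∈ (univ : Set X), 0 < max (N x) (N' x) := by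
      intro x _
      rw [lt_max_iff]
      by_contra hcon
      rw [not_or, not_lt, not_lt] at hcon
      exact h x (le_antisymm hcon.1 (hN.nonneg x)) (le_antisymm hcon.2 (hN'.nonneg x))
    obtain ⟨c, hc, hc2⟩ := isCompact_univ.exists_forall_le' hm hpos
    refine ⟨c / 2, by linarith, fun x => ?_⟩
    have := hc2 x (mem_univ x)
    rcases le_max_iff.1 this with h | h
    · exact Or.inl (by linarith)
    · exact Or.inr (by linarith)
  obtain ⟨G, hG⟩ := exists_cutLog hc
  rw [← nIP_tame hG.smooth hN hN', nIP]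
  have : (cF (tame G N)).wedge (cF (tame G N')) = fun _ => 0 := by
    funext x
    rcases hcO x with h | h
    · simp [TwoF.wedge, cF, curvN_tame_zero hG hN h]
    · simp [TwoF.wedge, cF, curvN_tame_zero hG hN' h]
  rw [this, Vale.Agent.P267.H533.intX_zero, mul_zero]

end Vale.Agent.P290.H220
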