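import Vale.Agent.P290.H220.Loc
import Vale.Agent.P267.H332.Pair.IntAx
import Vale.Agent.P267.H533.Bump

/-!
# P290 / H220: intersection numbers of norm functions as sums of local integrals

`X` compact complex surface, `N, N'` norm functions with finitely many common zeros:
`∫ c₁(N) ∧ c₁(N') = (1/π²) ∑_p ∫_{B_p} MA(w_p, w'_p) ≥ ∑_p ord_p N * ord_p N'`.
-/

set_option linter.unusedVariables false
set_option linter.unusedSectionVars false

open scoped Manifold ContDiff ComplexConjugate Matrix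
open MeasureTheory Set Filter Topology Metric

noncomputable section

namespace Vale.Agent.P290.H220

open Vale.Agent.P267.FL Vale.Agent.P267.H757 Vale.Agent.P267.H332

theorem exists_cutLog {c : ℝ} (hc : 0 < c) : ∃ G, CutLog G c := by
  refine ⟨fun r => Real.smoothTransition (2 * r / c - 1) * Real.log r, hc, ?_, ?_⟩
  · rw [contDiff_iff_contDiffAt]
    intro r
    rcases le_or_gt r (c / 4) with h | h
    · have : (fun r => Real.smoothTransition (2 * r / c - 1) * Real.log r) =ᶠ[𝓝 r] fun _ => 0 := by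
        filter_upwards [isOpen_Iio.mem_nhds (show r ∈ Iio (c / 2) by
          simp only [mem_Iio]; linarith)] with y hy
        have hy' : 2 * y / c - 1 ≤ 0 := by
          have : 2 * y / c ≤ 1 := by
            rw [div_le_one hc]
            simp only [mem_Iio] at hy
            linarith
          linarith
        rw [Real.smoothTransition.zero_of_nonpos hy', zero_mul]
      exact contDiffAt_const.congr_of_eventuallyEq this
    · have h0 : r ≠ 0 := by linarith
      refine ContDiffAt.mul ?_ (Real.contDiffAt_log.2 h0)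
      exact (Real.smoothTransition.contDiff).contDiffAt.comp r (by fun_prop)
  · intro r hr
    have : (1 : ℝ) ≤ 2 * r / c - 1 := by
      have : 2 ≤ 2 * r / c := by
        rw [le_div_iff₀ hc]; linarith
      linarith
    rw [Real.smoothTransition.one_of_one_le this, one_mul]

variable {X : Type*} [TopologicalSpace X] [ChartedSpace C2 X] [IsManifold 𝓘(ℂ, C2) ω X]
  [T2Space X] [CompactSpace X]

/-- intersection number of two norm functions: `∫ c₁(N) ∧ c₁(N')`, `c₁(N) = i/2π cF N` -/
def nIP (N N' : X → ℝ) : ℂ := -(1 / (4 * (Real.pi : ℂ) ^ 2)) * intX ((cF N).wedge (cF N'))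

theorem nIP_comm (N N' : X → ℝ) : nIP N N' = nIP N' N := by
  unfold nIP; rw [wedge_comm']

/-- the curvature form of a norm function as an element of the space of closed forms -/
def hcF {N : X → ℝ} (hN : IsNormFn C2 N) : HC X :=
  ⟨cF N, cF_smooth hN, cF_closed hN, (isClosed_closure).isCompact⟩

theorem intX_mul {N N₂ N' : X → ℝ} (hN : IsNormFn C2 N) (hN₂ : IsNormFn C2 N₂)
    (hN' : IsNormFn C2 N') : intX ((cF fun x => N x * N₂ x).wedge (cF N')) =
      intX ((cF N).wedge (cF N')) + intX ((cF N₂).wedge (cF N')) := by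
  have := pairC_mul (X := X) intAx hN hN₂ (hcF hN')
  exact this

theorem intX_pos {N N' : X → ℝ} (hN : IsNormFn C2 N) (hN' : IsNormFn C2 N')
    (hpos : ∀ x, 0 < N x) : intX ((cF N).wedge (cF N')) = 0 :=
  intX_cF_wedge_eq_zero stokesD hN (cF_smooth hN') (cF_closed hN') (isClosed_closure).isCompact
    fun x _ => hpos x

theorem nIP_mul {N N₂ N' : X → ℝ} (hN : IsNormFn C2 N) (hN₂ : IsNormFn C2 N₂)
    (hN' : IsNormFn C2 N') : nIP (fun x => N x * N₂ x) N' = nIP N N' + nIP N₂ N' := by
  unfold nIP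
  rw [intX_mul hN hN₂ hN', mul_add]

theorem nIP_pos {N N' : X → ℝ} (hN : IsNormFn C2 N) (hN' : IsNormFn C2 N')
    (hpos : ∀ x, 0 < N x) : nIP N N' = 0 := by
  unfold nIP
  rw [intX_pos hN hN' hpos, mul_zero]

/-! ### the tamed norm function `N e^{-G(N)}`, equal to `1` where `N ≥ c` -/

/-- `N e^{-G(N)}` -/
def tame (G : ℝ → ℝ) (N : X → ℝ) (x : X) : ℝ := N x * Real.exp (-(G (N x)))

theorem smooth_G {G : ℝ → ℝ} (hG : ContDiff ℝ ∞ G) {N : X → ℝ} (hN : IsNormFn C2 N) :
    ContMDiff 𝓘(ℝ, C2) 𝓘(ℝ) ∞ fun x => G (N x) :=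
  hG.contMDiff.comp hN.smooth

theorem tame_nf {G : ℝ → ℝ} (hG : ContDiff ℝ ∞ G) {N : X → ℝ} (hN : IsNormFn C2 N) :
    IsNormFn C2 (tame G N) := hN.mul (isNormFn_exp (smooth_G hG hN))

theorem nIP_tame_left {G : ℝ → ℝ} (hG : ContDiff ℝ ∞ G) {N N' : X → ℝ} (hN : IsNormFn C2 N)
    (hN' : IsNormFn C2 N') : nIP (tame G N) N' = nIP N N' := by
  have h1 := isNormFn_exp (E := C2) (smooth_G hG hN)
  have h2 := nIP_mul hN h1 hN'
  rw [nIP_pos h1 hN' fun x => Real.exp_pos _, add_zero] at h2
  exact h2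

theorem nIP_tame {G : ℝ → ℝ} (hG : ContDiff ℝ ∞ G) {N N' : X → ℝ} (hN : IsNormFn C2 N)
    (hN' : IsNormFn C2 N') : nIP (tame G N) (tame G N') = nIP N N' := by
  rw [nIP_tame_left hG hN (tame_nf hG hN'), nIP_comm, nIP_tame_left hG hN' hN, nIP_comm]

theorem tame_locRep {G : ℝ → ℝ} (hG : ContDiff ℝ ∞ G) {N : X → ℝ} (hN : IsNormFn C2 N)
    {U : Set X} {g : X → ℂ} {φ : X → ℝ} (h : LocRep C2 N U g φ) :
    LocRep C2 (tame G N) U g (fun x => φ x + G (N x)) := by
  refine ⟨h.isOpen, h.hol, h.nz, h.smooth.add (smooth_G hG hN).contMDiffOn, fun x hx => ?_⟩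
  rw [tame, h.eq x hx, ← h.eq x hx, neg_add, Real.exp_add, ← mul_assoc, ← h.eq x hx]

theorem curvN_one (x : X) : curvN (fun _ : X => (1 : ℝ)) x = 0 := by
  have h : LocRep C2 (fun _ : X => (1 : ℝ)) univ (fun _ => 1) (fun _ => 0) := by
    have := locRep_exp (E := C2) (M := X) (φ := fun _ => 0) isOpen_univ contMDiffOn_const
    simpa using this
  rw [curvN_eq h (mem_univ x)]
  exact ddz_const _ _

theorem curvN_tame_zero {G : ℝ → ℝ} {c : ℝ} (hG : CutLog G c) {N : X → ℝ} (hN : IsNormFn C2 N)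
    {x : X} (hx : c < N x) : curvN (tame G N) x = 0 := by
  rw [curvN_congr (tame_nf hG.smooth hN) (N' := fun _ => 1), curvN_one]
  filter_upwards [hN.continuous.continuousAt.eventually (isOpen_Ioi.mem_nhds hx)] with y hy
  have hy0 : 0 < N y := hG.pos.trans hy
  rw [tame, hG.eq _ (le_of_lt hy), Real.exp_neg, Real.exp_log hy0, mul_inv_cancel₀ hy0.ne']

/-- a local equation of the norm function vanishes to order at least `a` at `p` -/
def OrdGe (N : X → ℝ) (p : X) (a : ℕ) : Prop := ∃ (U : Set X) (g : X → ℂ) (φ : X → ℝ), p ∈ U ∧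
  LocRep C2 N U g φ ∧
    (fun z => g ((chartAt C2 p).symm z)) =O[𝓝 (chartAt C2 p p)] fun z => ‖z - chartAt C2 p p‖ ^ a

/-- adapted coordinate ball at a point -/
theorem exists_radius {W : Set X} (hW : IsOpen W) {p : X} (hp : p ∈ W) :
    ∃ r : ℝ, 0 < r ∧ closedBall (chartAt C2 p p) r ⊆
      (chartAt C2 p).target ∩ (chartAt C2 p).symm ⁻¹' W := by
  have h : (chartAt C2 p).target ∩ (chartAt C2 p).symm ⁻¹' W ∈ 𝓝 (chartAt C2 p p) := by
    refine ((chartAt C2 p).symm.isOpen_inter_preimage hW).mem_nhds ⟨mem_chart_target C2 p, ?_⟩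
    rwa [mem_preimage, (chartAt C2 p).left_inv (mem_chart_source C2 p)]
  obtain ⟨r, hr, h⟩ := Metric.nhds_basis_closedBall.mem_iff.1 h
  exact ⟨r, hr, h⟩

/-- the wedge of two curvature forms in a chart -/
theorem loc2_wedge_MA {N N' : X → ℝ} {U U' : Set X} {g g' : X → ℂ} {φ φ' : X → ℝ}
    (h : LocRep C2 N U g φ) (h' : LocRep C2 N' U' g' φ') {e : Ch X} (he : e ∈ atlas C2 X)
    {z : C2} (hz : z ∈ e.target) (hU : e.symm z ∈ U) (hU' : e.symm z ∈ U') :
    loc2 1 e ((cF N).wedge (cF N')) z =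
      -MA (fun y => (φ (e.symm y) : ℂ)) (fun y => (φ' (e.symm y) : ℂ)) z := by
  rw [loc2_wedge]
  simp only [cF]
  rw [loc11_curvN h he hz hU, loc11_curvN h' he hz hU']
  simp only [loc0, loc2, smul_zero, MA, lv, ddz_apply]
  ring

theorem sum_le_nIP {N N' : X → ℝ} (hN : IsNormFn C2 N) (hN' : IsNormFn C2 N')
    (S : Finset X) (hS : ∀ x, N x = 0 → N' x = 0 → x ∈ S) (a b : X → ℕ)
    (ha : ∀ p ∈ S, OrdGe N p (a p)) (hb : ∀ p ∈ S, OrdGe N' p (b p)) :
    (∑ p ∈ S, (a p * b p : ℝ)) ≤ (nIP N N').re := by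
  classical
  -- local data
  have hdat : ∀ p : S, ∃ (U : Set X) (g : X → ℂ) (φ : X → ℝ), (p : X) ∈ U ∧ LocRep C2 N U g φ ∧
    (fun z => g ((chartAt C2 (p : X)).symm z)) =O[𝓝 (chartAt C2 (p : X) p)]
      fun z => ‖z - chartAt C2 (p : X) p‖ ^ (a p) := fun p => ha p p.2
  have hdat' : ∀ p : S, ∃ (U : Set X) (g : X → ℂ) (φ : X → ℝ), (p : X) ∈ U ∧ LocRep C2 N' U g φ ∧
    (fun z => g ((chartAt C2 (p : X)).symm z)) =O[𝓝 (chartAt C2 (p : X) p)]
      fun z => ‖z - chartAt C2 (p : X) p‖ ^ (b p) := fun p => hb p p.2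
  choose U g φ hpU hrep hO using hdat
  choose U' g' φ' hpU' hrep' hO' using hdat'
  obtain ⟨D, hD, hDd⟩ := S.finite_toSet.t2_separation
  have hW : ∀ p : S, ∃ r : ℝ, 0 < r ∧ closedBall (chartAt C2 (p : X) p) r ⊆
      (chartAt C2 (p : X)).target ∩ (chartAt C2 (p : X)).symm ⁻¹' (D p ∩ (U p ∩ U' p)) := fun p =>
    exists_radius ((hD p).2.inter ((hrep p).isOpen.inter (hrep' p).isOpen))
      ⟨(hD p).1, hpU p, hpU' p⟩
  choose r hr hball using hW
  -- the sets in `X`
  set V : S → Set X := fun p => (chartAt C2 (p : X)).source ∩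
    (chartAt C2 (p : X)) ⁻¹' ball (chartAt C2 (p : X) p) (r p) with hVd
  set O : S → Set X := fun p => (chartAt C2 (p : X)).source ∩
    (chartAt C2 (p : X)) ⁻¹' ball (chartAt C2 (p : X) p) (r p / 2) with hOd
  have hVo : ∀ p, IsOpen (V p) := fun p => (chartAt C2 (p : X)).isOpen_inter_preimage isOpen_ball
  have hOo : ∀ p, IsOpen (O p) := fun p => (chartAt C2 (p : X)).isOpen_inter_preimage isOpen_ball
  have hOV : ∀ p, O p ⊆ V p := fun p x hx => ⟨hx.1, ball_subset_ball (by linarith [hr p]) hx.2⟩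
  have hVD : ∀ p, V p ⊆ D p := by
    intro p x hx
    have := (hball p (ball_subset_closedBall hx.2)).2.1
    rwa [(chartAt C2 (p : X)).left_inv hx.1] at this
  have hpO : ∀ p : S, (p : X) ∈ O p := fun p =>
    ⟨mem_chart_source C2 _, mem_ball_self (by linarith [hr p])⟩
  have hdisj : ∀ p q : S, p ≠ q → ∀ x, x ∈ V p → x ∉ V q := by
    intro p q hpq x hx hx'
    have h1 : (p : X) ≠ q := fun h => hpq (Subtype.ext h)
    exact Set.disjoint_left.1 (hDd p.2 q.2 h1) (hVD p hx) (hVD q hx')
  -- the constant `c`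
  obtain ⟨c, hc, hcO⟩ : ∃ c : ℝ, 0 < c ∧ ∀ x, (∀ p, x ∉ O p) → c < N x ∨ c < N' x := by
    have hZ : IsCompact (⋃ p, O p)ᶜ := (isOpen_iUnion hOo).isClosed_compl.isCompact
    have hm : ContinuousOn (fun x => max (N x) (N' x)) (⋃ p, O p)ᶜ :=
      (hN.continuous.max hN'.continuous).continuousOn
    have hpos : ∀ x ∈ (⋃ p, O p)ᶜ, 0 < max (N x) (N' x) := by
      intro x hx
      rw [lt_max_iff]
      by_contra hcon
      rw [not_or, not_lt, not_lt] at hcon
      have h1 : N x = 0 := le_antisymm hcon.1 (hN.nonneg x)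
      have h2 : N' x = 0 := le_antisymm hcon.2 (hN'.nonneg x)
      exact hx (mem_iUnion.2 ⟨⟨x, hS x h1 h2⟩, hpO ⟨x, hS x h1 h2⟩⟩)
    obtain ⟨c, hc, hc2⟩ := hZ.exists_forall_le' hm hpos
    refine ⟨c / 2, by linarith, fun x hx => ?_⟩
    have := hc2 x (by simpa using hx)
    rcases le_max_iff.1 this with h | h
    · exact Or.inl (by linarith)
    · exact Or.inr (by linarith)
  obtain ⟨G, hG⟩ := exists_cutLog hc
  have hT := tame_nf hG.smooth hN
  have hT' := tame_nf hG.smooth hN'
  set β : X → ℂ := (cF (tame G N)).wedge (cF (tame G N')) with hβ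
  have hβ0 : ∀ x, (∀ p, x ∉ O p) → β x = 0 := by
    intro x hx
    rcases hcO x hx with h | h
    · simp [hβ, TwoF.wedge, cF, curvN_tame_zero hG hN h]
    · simp [hβ, TwoF.wedge, cF, curvN_tame_zero hG hN' h]
  have hβr : Reg2 ∞ 1 β := reg2_wedge (cF_smooth hT) (cF_smooth hT')
  -- cut-offs
  have hcut : ∀ p : S, ∃ χ : X → ℝ, Vale.Agent.P267.H533.RSm χ ∧ tsupport χ ⊆ V p ∧
      ∀ x ∈ O p, χ x = 1 := by
    intro p
    set e := chartAt C2 (p : X) with he
    have hK : IsCompact (e.symm '' closedBall (e p) (r p / 2)) :=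
      (isCompact_closedBall _ _).image_of_continuousOn (e.continuousOn_symm.mono fun z hz =>
        (hball p (closedBall_subset_closedBall (by linarith [hr p]) hz)).1)
    have hKV : e.symm '' closedBall (e p) (r p / 2) ⊆ V p := by
      rintro _ ⟨z, hz, rfl⟩
      have hz' : z ∈ ball (e p) (r p) := closedBall_subset_ball (by linarith [hr p]) hz
      have hzt := (hball p (ball_subset_closedBall hz')).1
      exact ⟨e.map_target hzt, by rw [mem_preimage, e.right_inv hzt]; exact hz'⟩
    obtain ⟨χ, h1, h2, h3, h4, h5⟩ := Vale.Agent.P267.H533.exists_cutoff hK (hVo p) hKV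
    refine ⟨χ, h1, h3, fun x hx => ?_⟩
    exact Eventually.self_of_nhdsSet h5 x ⟨e x, ball_subset_closedBall hx.2, e.left_inv hx.1⟩
  choose χ hχs hχt hχ1 using hcut
  have hχ0 : ∀ p x, x ∉ V p → χ p x = 0 := fun p x hx => by
    by_contra h
    exact hx (hχt p (subset_tsupport _ h))
  have hsum : β = fun x => ∑ p : S, (χ p x : ℂ) * β x := by
    funext x
    by_cases hx : ∃ p, x ∈ O p
    · obtain ⟨p, hp⟩ := hx
      rw [Finset.sum_eq_single p]
      · rw [hχ1 p x hp]; simp
      · intro q _ hq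
        rw [hχ0 q x (hdisj p q (Ne.symm hq) x (hOV p hp))]; simp
      · simp
    · rw [hβ0 x (not_exists.1 hx)]; simp
  have hLI : ∀ p : S, Vale.Agent.P267.H533.LocInt fun x => (χ p x : ℂ) * β x := fun p =>
    hβr.locInt.mul_cont (Complex.continuous_ofReal.comp (hχs p).continuous)
  have hCS : ∀ f : X → ℂ, HasCompactSupport f := fun f => HasCompactSupport.of_compactSpace f
  have hint : intX β = ∑ p : S, intX fun x => (χ p x : ℂ) * β x := by
    conv_lhs => rw [hsum]
    exact Vale.Agent.P267.H533.intX_sum _ (fun p _ => hLI p) (fun p _ => hCS _)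
  -- one chart
  have hone : ∀ p : S, intX (fun x => (χ p x : ℂ) * β x) =
      -4 * ∫ z in ball (chartAt C2 (p : X) p) (r p),
        MA (fun z => ((φ p ((chartAt C2 (p : X)).symm z) + G (N ((chartAt C2 (p : X)).symm z)) : ℝ) : ℂ))
          (fun z => ((φ' p ((chartAt C2 (p : X)).symm z) + G (N' ((chartAt C2 (p : X)).symm z)) : ℝ) : ℂ)) z := by
    intro p
    set e := chartAt C2 (p : X) with he
    have heA : e ∈ atlas C2 X := chart_mem_atlas C2 _
    have hts : tsupport (fun x => (χ p x : ℂ) * β x) ⊆ e.source := by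
      refine (tsupport_mul_subset_left).trans ?_
      have : tsupport (fun x => (χ p x : ℂ)) ⊆ tsupport (χ p) := by
        refine closure_mono fun x hx => ?_
        simpa using hx
      exact (this.trans (hχt p)).trans inter_subset_left
    rw [Vale.Agent.P267.H533.intX_chart (hLI p) (hCS _) heA hts]
    have hsub : ball (e p) (r p) ⊆ e.target := fun z hz =>
      (hball p (ball_subset_closedBall hz)).1
    rw [setIntegral_eq_of_subset_of_forall_sdiff_eq_zero e.open_target.measurableSet hsub,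
      ← integral_const_mul]
    · refine setIntegral_congr_fun measurableSet_ball fun z hz => ?_
      have hzt := hsub hz
      have hzW := (hball p (ball_subset_closedBall hz)).2
      have hzV : e.symm z ∈ V p := ⟨e.map_target hzt, by
        rw [mem_preimage, ← he, e.right_inv hzt]; exact hz⟩
      have h1 : loc2 1 e β z = -MA (fun z => ((φ p (e.symm z) + G (N (e.symm z)) : ℝ) : ℂ))
          (fun z => ((φ' p (e.symm z) + G (N' (e.symm z)) : ℝ) : ℂ)) z :=
        loc2_wedge_MA (tame_locRep hG.smooth hN (hrep p)) (tame_locRep hG.smooth hN' (hrep' p))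
          heA hzt hzW.2.1 hzW.2.2
      have h2 : loc2 1 e (fun x => (χ p x : ℂ) * β x) z = loc2 1 e β z := by
        by_cases hO : e.symm z ∈ O p
        · simp only [loc2, hχ1 p _ hO]; simp
        · have : β (e.symm z) = 0 := by
            refine hβ0 _ fun q hq => ?_
            by_cases hpq : q = p
            · rw [hpq] at hq; exact hO hq
            · exact hdisj p q (Ne.symm hpq) _ hzV (hOV q hq)
          simp only [loc2, this]; simp
      rw [h2, h1]; ring
    · intro z hz
      have : e.symm z ∉ V p := by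
        intro h
        have := h.2
        rw [mem_preimage, ← he, e.right_inv hz.1] at this
        exact hz.2 this
      simp only [loc2, hχ0 p _ this]; simp
  -- the local inequality
  have hineq : ∀ p : S, Real.pi ^ 2 * ((a p : ℝ) * b p) ≤
      (∫ z in ball (chartAt C2 (p : X) p) (r p),
        MA (fun z => ((φ p ((chartAt C2 (p : X)).symm z) + G (N ((chartAt C2 (p : X)).symm z)) : ℝ) : ℂ))
          (fun z => ((φ' p ((chartAt C2 (p : X)).symm z) + G (N' ((chartAt C2 (p : X)).symm z)) : ℝ) : ℂ)) z).re := by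
    intro p
    set e := chartAt C2 (p : X) with he
    have heA : e ∈ atlas C2 X := chart_mem_atlas C2 _
    have hsub : ball (e p) (r p) ⊆ e.target ∩ e.symm ⁻¹' (U p) := fun z hz =>
      ⟨(hball p (ball_subset_closedBall hz)).1, (hball p (ball_subset_closedBall hz)).2.2.1⟩
    have hsub' : ball (e p) (r p) ⊆ e.target ∩ e.symm ⁻¹' (U' p) := fun z hz =>
      ⟨(hball p (ball_subset_closedBall hz)).1, (hball p (ball_subset_closedBall hz)).2.2.2⟩
    have hcont : ∀ {N : X → ℝ}, IsNormFn C2 N →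
        ContinuousOn (fun z => N (e.symm z)) (ball (e p) (r p)) := fun hN =>
      hN.continuous.comp_continuousOn (e.continuousOn_symm.mono (hsub.trans inter_subset_left))
    have hopen : ∀ {N : X → ℝ}, IsNormFn C2 N →
        IsOpen (ball (e p) (r p) \ {z | N (e.symm z) ≤ c}) := by
      intro N hN
      have : ball (e p) (r p) \ {z | N (e.symm z) ≤ c} =
          ball (e p) (r p) ∩ (fun z => N (e.symm z)) ⁻¹' Ioi c := by
        ext z; simp
      rw [this]
      exact (hcont hN).isOpen_inter_preimage isOpen_ball isOpen_Ioi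
    have hlog : ∀ {N : X → ℝ} {U : Set X} {g : X → ℂ} {φ : X → ℝ}, LocRep C2 N U g φ →
        ball (e p) (r p) ⊆ e.target ∩ e.symm ⁻¹' U → ∀ z ∈ ball (e p) (r p),
        z ∉ {z | N (e.symm z) ≤ c} → g (e.symm z) ≠ 0 ∧
          φ (e.symm z) + G (N (e.symm z)) = Real.log (‖g (e.symm z)‖ ^ 2) := by
      intro N U g φ h hs z hz hzA
      simp only [mem_ofPred_eq, not_le] at hzA
      have h0 : 0 < N (e.symm z) := hc.trans hzA
      have h1 := h.eq _ (hs hz).2
      have hg0 : g (e.symm z) ≠ 0 := by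
        intro h2
        rw [h1, h2] at h0
        simp at h0
      refine ⟨hg0, ?_⟩
      rw [hG.eq _ hzA.le, h1, Real.log_mul (by positivity) (Real.exp_pos _).ne', Real.log_exp]
      ring
    refine locThm (A := {z | N (e.symm z) ≤ c}) (A' := {z | N' (e.symm z) ≤ c})
      (f := fun z => g p (e.symm z)) (g := fun z => g' p (e.symm z)) (hr p)
      ((differentiableOn_chart heA (hrep p).hol).mono hsub)
      ((differentiableOn_chart heA (hrep' p).hol).mono hsub')
      ((contDiffOn_chart heA (tame_locRep hG.smooth hN (hrep p)).smooth).mono hsub)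
      ((contDiffOn_chart heA (tame_locRep hG.smooth hN' (hrep' p)).smooth).mono hsub')
      (hopen hN) (hopen hN') (hlog (hrep p) hsub) (hlog (hrep' p) hsub') ?_ ?_ (hO p) (hO' p)
    swap
    · intro z hz h0 h0'
      have hzt := (hsub hz).1
      have h1 : N (e.symm z) = 0 := ((hrep p).eq_zero_iff (hsub hz).2).2 h0
      have h2 : N' (e.symm z) = 0 := ((hrep' p).eq_zero_iff (hsub' hz).2).2 h0'
      have hzS := hS _ h1 h2
      have hzV : e.symm z ∈ V p := ⟨e.map_target hzt, by
        rw [mem_preimage, ← he, e.right_inv hzt]; exact hz⟩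
      have hq : e.symm z ∈ V ⟨e.symm z, hzS⟩ := hOV _ (hpO ⟨e.symm z, hzS⟩)
      have hpq : p = ⟨e.symm z, hzS⟩ := by
        by_contra hne
        exact hdisj p _ hne _ hzV hq
      have h3 : (p : X) = e.symm z := congrArg Subtype.val hpq
      rw [h3, e.right_inv hzt]
    intro z hz hzA hzA'
    by_contra hzK
    have hzt := (hsub hz).1
    have hzV : e.symm z ∈ V p := ⟨e.map_target hzt, by
        rw [mem_preimage, ← he, e.right_inv hzt]; exact hz⟩
    have hnO : ∀ q, e.symm z ∉ O q := by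
      intro q hq
      by_cases hpq : q = p
      · rw [hpq] at hq
        have := hq.2
        rw [mem_preimage, ← he, e.right_inv hzt] at this
        exact hzK (ball_subset_closedBall this)
      · exact hdisj p q (Ne.symm hpq) _ hzV (hOV q hq)
    rcases hcO _ hnO with h | h
    · exact absurd hzA (not_le.2 h)
    · exact absurd hzA' (not_le.2 h)
  -- conclusion
  have hpi : (0 : ℝ) < Real.pi := Real.pi_pos
  have hfin : nIP N N' = ∑ p : S, ((1 / Real.pi ^ 2 : ℝ) : ℂ) *
      ∫ z in ball (chartAt C2 (p : X) p) (r p),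
        MA (fun z => ((φ p ((chartAt C2 (p : X)).symm z) + G (N ((chartAt C2 (p : X)).symm z)) : ℝ) : ℂ))
          (fun z => ((φ' p ((chartAt C2 (p : X)).symm z) + G (N' ((chartAt C2 (p : X)).symm z)) : ℝ) : ℂ)) z := by
    rw [← nIP_tame hG.smooth hN hN', nIP, ← hβ, hint, Finset.mul_sum]
    refine Finset.sum_congr rfl fun p _ => ?_
    rw [hone p, ← mul_assoc]
    congr 1
    push_cast
    have : (Real.pi : ℂ) ≠ 0 := by exact_mod_cast hpi.ne'
    field_simp
  rw [hfin, Complex.re_sum, ← Finset.sum_coe_sort]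
  refine Finset.sum_le_sum fun p _ => ?_
  rw [Complex.re_ofReal_mul]
  have := hineq p
  rw [one_div, inv_mul_eq_div, le_div_iff₀ (by positivity)]
  linarith

end Vale.Agent.P290.H220
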