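import Vale.Agent.P290.H220.MA
import Vale.Agent.P268.Hol

/-!
# P290 / H220: the local integral only depends on the holomorphic functions

If `u = log |f|²` off `A`, `v = log |g|²` off `A'` and `A ∩ A'` lies in a compact set, then
`∫ MA u v = ∫ MA (G(|f|²)) (G(|g|²))` for every smooth `G` which is the logarithm on `[c, ∞)`.
-/

set_option linter.unusedVariables false

open scoped Manifold ContDiff ComplexConjugate
open MeasureTheory Set Filter Topology
open Vale.Agent.P267.FL

noncomputable section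

namespace Vale.Agent.P290.H220

/-- the function `G(|f|²)` -/
def Lg (G : ℝ → ℝ) (f : C2 → ℂ) (z : C2) : ℂ := ((G (Complex.normSq (f z)) : ℝ) : ℂ)

/-- `log |f|²` is pluriharmonic where `f ≠ 0` -/
theorem lv_log_normSq {f : C2 → ℂ} {z : C2} (hf : ∀ᶠ y in 𝓝 z, DifferentiableAt ℂ f y)
    (h0 : f z ≠ 0) (i j : Fin 2) :
    lv i j (fun y => ((Real.log (Complex.normSq (f y)) : ℝ) : ℂ)) z = 0 := by
  set c : ℂ := conj (f z) with hc
  have hc0 : c ≠ 0 := by simpa [hc] using h0
  set F : C2 → ℂ := fun y => Complex.log (c * f y) with hF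
  have hsl : c * f z ∈ Complex.slitPlane := by
    rw [hc, mul_comm, Complex.mul_conj]
    exact Complex.ofReal_mem_slitPlane.2 (Complex.normSq_pos.2 h0)
  have hfz : DifferentiableAt ℂ f z := hf.self_of_nhds
  have hev : ∀ᶠ y in 𝓝 z, c * f y ∈ Complex.slitPlane :=
    (continuousAt_const.mul hfz.continuousAt).eventually (Complex.isOpen_slitPlane.mem_nhds hsl)
  have hF1 : ∀ᶠ y in 𝓝 z, DifferentiableAt ℂ F y := by
    filter_upwards [hf, hev] with y h1 h2
    exact (h1.const_mul c).clog h2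
  have hne : ∀ᶠ y in 𝓝 z, f y ≠ 0 := hfz.continuousAt.eventually_ne h0
  have hF2 : ContDiffAt ℝ 2 F z := by
    have : AnalyticAt ℂ F z := by
      obtain ⟨s, hs, hso, hzs⟩ := eventually_nhds_iff.1 hF1
      have : DifferentiableOn ℂ F s := fun y hy => (hs y hy).differentiableWithinAt
      exact Vale.Agent.P268.analyticOnNhd_of_differentiableOn hso this z hzs
    exact this.contDiffAt.restrict_scalars ℝ
  have heq : (fun y => ((Real.log (Complex.normSq (f y)) : ℝ) : ℂ)) =ᶠ[𝓝 z]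
      fun y => (F y + conj (F y)) - ((Real.log (Complex.normSq c) : ℝ) : ℂ) := by
    filter_upwards [hne] with y hy
    rw [Complex.add_conj, hF]
    simp only [Complex.log_re]
    have h2 : Real.log (Complex.normSq (f y)) = 2 * Real.log ‖f y‖ := by
      rw [Complex.normSq_eq_norm_sq, Real.log_pow]; norm_num
    have h3 : Real.log (Complex.normSq c) = 2 * Real.log ‖c‖ := by
      rw [Complex.normSq_eq_norm_sq, Real.log_pow]; norm_num
    have h4 : Real.log ‖c * f y‖ = Real.log ‖c‖ + Real.log ‖f y‖ := by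
      rw [norm_mul, Real.log_mul (norm_ne_zero_iff.2 hc0) (norm_ne_zero_iff.2 hy)]
    rw [h2, h3, h4]
    push_cast
    ring
  have hFc : ContDiffAt ℝ 2 (fun y => conj (F y)) z :=
    Complex.conjCLE.contDiff.contDiffAt.comp z hF2
  rw [lv_congr heq, lv_sub (hF2.add hFc) contDiffAt_const, lv_add hF2 hFc, lv_conj hF2,
    lv_hol hF1, lv_hol hF1, lv_const]
  simp

theorem eventually_hol {f : C2 → ℂ} {U : Set C2} (hU : IsOpen U) (hf : DifferentiableOn ℂ f U)
    {z : C2} (hz : z ∈ U) : ∀ᶠ y in 𝓝 z, DifferentiableAt ℂ f y := by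
  filter_upwards [hU.mem_nhds hz] with y hy
  exact hf.differentiableAt (hU.mem_nhds hy)

theorem contDiffOn_real {f : C2 → ℂ} {U : Set C2} (hU : IsOpen U) (hf : DifferentiableOn ℂ f U) :
    ContDiffOn ℝ ∞ f U := by
  have h : AnalyticOnNhd ℂ f U := Vale.Agent.P268.analyticOnNhd_of_differentiableOn hU hf
  intro z hz
  exact ((h z hz).contDiffAt.restrict_scalars ℝ).contDiffWithinAt

theorem contDiff_normSq : ContDiff ℝ ∞ (Complex.normSq : ℂ → ℝ) := by
  have : (Complex.normSq : ℂ → ℝ) = fun w => w.re * w.re + w.im * w.im := by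
    ext w; exact Complex.normSq_apply w
  rw [this]
  exact ((Complex.reCLM.contDiff.mul Complex.reCLM.contDiff)).add
    (Complex.imCLM.contDiff.mul Complex.imCLM.contDiff)

theorem contDiffOn_Lg {G : ℝ → ℝ} (hG : ContDiff ℝ ∞ G) {f : C2 → ℂ} {U : Set C2}
    (hU : IsOpen U) (hf : DifferentiableOn ℂ f U) : ContDiffOn ℝ ∞ (Lg G f) U := by
  unfold Lg
  exact Complex.ofRealCLM.contDiff.comp_contDiffOn
    (hG.comp_contDiffOn (contDiff_normSq.comp_contDiffOn (contDiffOn_real hU hf)))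

theorem conj_Lg (G : ℝ → ℝ) (f : C2 → ℂ) : (fun z => conj (Lg G f z)) = Lg G f := by
  funext z; simp [Lg]

/-- continuous on `Ω`, zero off a compact subset: integrable -/
theorem integrableOn_of_compact {Ω K : Set C2} (hΩ : IsOpen Ω) (hK : IsCompact K) (hKΩ : K ⊆ Ω)
    {a : C2 → ℂ} (ha : ContDiffOn ℝ ∞ a Ω) (h0 : ∀ z ∈ Ω, z ∉ K → a z = 0) :
    IntegrableOn a Ω := by
  have h1 : Integrable (Ω.indicator a) :=
    (contDiff_indicator hΩ hK.isClosed hKΩ ha h0).continuous.integrable_of_hasCompactSupport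
      (hasCompactSupport_indicator hK h0)
  exact (integrable_indicator_iff hΩ.measurableSet).1 h1

theorem contDiffOn_MA {u v : C2 → ℂ} {U : Set C2} (hU : IsOpen U) (hu : ContDiffOn ℝ ∞ u U)
    (hv : ContDiffOn ℝ ∞ v U) : ContDiffOn ℝ ∞ (MA u v) U := fun z hz =>
  (contDiffAt_MA (hu.contDiffAt (hU.mem_nhds hz)) (hv.contDiffAt (hU.mem_nhds hz))).contDiffWithinAt

/-- **independence of the choice of the regularisations** -/
theorem indep {U K A A' : Set C2} (hU : IsOpen U) (hK : IsCompact K) (hKU : K ⊆ U)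
    {f g : C2 → ℂ} (hf : DifferentiableOn ℂ f U) (hg : DifferentiableOn ℂ g U)
    {u v : C2 → ℂ} (hu : ContDiffOn ℝ ∞ u U) (hv : ContDiffOn ℝ ∞ v U)
    {G : ℝ → ℝ} {c : ℝ} (hG : CutLog G c)
    (hA : IsOpen (U \ A)) (hA' : IsOpen (U \ A'))
    (h1 : ∀ z ∈ U, z ∉ A → c ≤ Complex.normSq (f z) ∧
      u z = ((Real.log (Complex.normSq (f z)) : ℝ) : ℂ))
    (h2 : ∀ z ∈ U, z ∉ A' → c ≤ Complex.normSq (g z) ∧
      v z = ((Real.log (Complex.normSq (g z)) : ℝ) : ℂ))
    (hAA : ∀ z ∈ U, z ∈ A → z ∈ A' → z ∈ K) :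
    IntegrableOn (MA u v) U ∧ IntegrableOn (MA (Lg G f) (Lg G g)) U ∧
      ∫ z in U, MA u v z = ∫ z in U, MA (Lg G f) (Lg G g) z := by
  have hu2 := contDiffOn_Lg hG.smooth hU hf
  have hv2 := contDiffOn_Lg hG.smooth hU hg
  -- off `A`: `u = log |f|² = G(|f|²)` near the point, pluriharmonic
  have key : ∀ {f u : C2 → ℂ} {A : Set C2}, DifferentiableOn ℂ f U → IsOpen (U \ A) →
      (∀ z ∈ U, z ∉ A → c ≤ Complex.normSq (f z) ∧
        u z = ((Real.log (Complex.normSq (f z)) : ℝ) : ℂ)) → ∀ z ∈ U, z ∉ A →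
      (∀ i j, lv i j u z = 0) ∧ (∀ i j, lv i j (Lg G f) z = 0) ∧
        (fun y => u y - Lg G f y) =ᶠ[𝓝 z] fun _ => 0 := by
    intro f u A hf hA h1 z hz hzA
    have hn : U \ A ∈ 𝓝 z := hA.mem_nhds ⟨hz, hzA⟩
    have hfz : f z ≠ 0 := by
      intro h
      have := (h1 z hz hzA).1
      rw [h, Complex.normSq_zero] at this
      exact absurd this (not_le.2 hG.pos)
    have e1 : u =ᶠ[𝓝 z] fun y => ((Real.log (Complex.normSq (f y)) : ℝ) : ℂ) := by
      filter_upwards [hn] with y hy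
      exact (h1 y hy.1 hy.2).2
    have e2 : Lg G f =ᶠ[𝓝 z] fun y => ((Real.log (Complex.normSq (f y)) : ℝ) : ℂ) := by
      filter_upwards [hn] with y hy
      rw [Lg, hG.eq _ (h1 y hy.1 hy.2).1]
    refine ⟨fun i j => ?_, fun i j => ?_, ?_⟩
    · rw [lv_congr e1, lv_log_normSq (eventually_hol hU hf hz) hfz]
    · rw [lv_congr e2, lv_log_normSq (eventually_hol hU hf hz) hfz]
    · filter_upwards [e1, e2] with y h1 h2
      rw [h1, h2, sub_self]
  have kf := key hf hA h1
  have kg := key hg hA' h2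
  have dz0 : ∀ {q : C2 → ℂ} {z : C2}, q =ᶠ[𝓝 z] (fun _ => 0) → ∀ j, dzb j q z = 0 := by
    intro q z h j
    rw [dzb_congr h, dzb_const]
  -- first step
  have s1 := stokes (q := fun y => v y - Lg G g y) (v := u) hU hK hKU (hv.sub hv2) hu
    (fun z hz hzK => by
      by_cases hzA : z ∈ A
      · exact Or.inl (dz0 (kg z hz fun h => hzK (hAA z hz hzA h)).2.2)
      · exact Or.inr (kf z hz hzA).1)
  have s2 := stokes (q := fun y => u y - Lg G f y) (v := Lg G g) hU hK hKU (hu.sub hu2) hv2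
    (fun z hz hzK => by
      by_cases hzA : z ∈ A
      · exact Or.inr (kg z hz fun h => hzK (hAA z hz hzA h)).2.1
      · exact Or.inl (dz0 (kf z hz hzA).2.2))
  have i1 : IntegrableOn (MA u v) U := by
    refine integrableOn_of_compact hU hK hKU (contDiffOn_MA hU hu hv) fun z hz hzK => ?_
    by_cases hzA : z ∈ A
    · exact MA_zero_right (kg z hz fun h => hzK (hAA z hz hzA h)).1
    · exact MA_zero_left (kf z hz hzA).1
  have i2 : IntegrableOn (MA (Lg G f) (Lg G g)) U := by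
    refine integrableOn_of_compact hU hK hKU (contDiffOn_MA hU hu2 hv2) fun z hz hzK => ?_
    by_cases hzA : z ∈ A
    · exact MA_zero_right (kg z hz fun h => hzK (hAA z hz hzA h)).2.1
    · exact MA_zero_left (kf z hz hzA).2.1
  refine ⟨i1, i2, ?_⟩
  have hpt : ∀ z ∈ U, MA u v z = MA (fun y => v y - Lg G g y) u z +
      (MA (fun y => u y - Lg G f y) (Lg G g) z + MA (Lg G f) (Lg G g) z) := by
    intro z hz
    have hn := hU.mem_nhds hz
    have c1 := (hu.contDiffAt hn).of_le two_le_infty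
    have c2 := (hv.contDiffAt hn).of_le two_le_infty
    have c3 := (hu2.contDiffAt hn).of_le two_le_infty
    have c4 := (hv2.contDiffAt hn).of_le two_le_infty
    rw [MA_sub_left c2 c4, MA_sub_left c1 c3, MA_comm v u, MA_comm (Lg G g) u]
    ring
  have e2 : ∫ z in U, (MA (fun y => u y - Lg G f y) (Lg G g) z + MA (Lg G f) (Lg G g) z) =
      ∫ z in U, MA (Lg G f) (Lg G g) z := by
    rw [integral_add s2.1 i2, s2.2, zero_add]
  have e1 : ∫ z in U, (MA (fun y => v y - Lg G g y) u z +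
      (MA (fun y => u y - Lg G f y) (Lg G g) z + MA (Lg G f) (Lg G g) z)) =
      ∫ z in U, (MA (fun y => u y - Lg G f y) (Lg G g) z + MA (Lg G f) (Lg G g) z) := by
    have := integral_add (μ := volume.restrict U) s1.1 (s2.1.add i2)
    rw [s1.2, zero_add] at this
    exact this
  rw [setIntegral_congr_fun hU.measurableSet hpt, e1, e2]

end Vale.Agent.P290.H220
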