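import Mathlib

/-!
# P290 / H220: isotropic classes on a K3 surface, the combinatorial part

`IsoTh`: the divisors of the sections `V` of a line bundle `x0` on a K3 surface, the intersection
form on divisors, Riemann-Roch for `x0 - F`. `IsoTh.main`: if `x0` is isotropic then some subsystem
with fixed part `G` has `(x0 - G)² = 0`, so two of its members without common curve are disjoint.
-/

open Finset Module

namespace Vale.Agent.P290.H220.Iso

/-- integral divisor of an effective divisor -/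
noncomputable def toZ {P : Type*} : (P →₀ ℕ) →+ (P →₀ ℤ) :=
  Finsupp.mapRange.addMonoidHom (Nat.castAddMonoidHom ℤ)

theorem toZ_apply {P : Type*} (D : P →₀ ℕ) (C : P) : toZ D C = D C := by
  simp [toZ]

theorem toZ_single {P : Type*} (C : P) (k : ℕ) :
    toZ (Finsupp.single C k) = Finsupp.single C (k : ℤ) := by
  simp [toZ]

theorem toZ_injective {P : Type*} : Function.Injective (toZ (P := P)) := by
  intro D D' h
  ext C
  have := congrArg (fun f => f C) h
  simpa [toZ_apply] using this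

/-- The abstract situation. -/
structure IsoTh (P V : Type*) [AddCommGroup V] [Module ℂ V] where
  B : (P →₀ ℤ) →+ (P →₀ ℤ) →+ ℤ
  symm : ∀ x y, B x y = B y x
  nonneg : ∀ C C', C ≠ C' → 0 ≤ B (Finsupp.single C 1) (Finsupp.single C' 1)
  self : ∀ C, B (Finsupp.single C 1) (Finsupp.single C 1) < 0 →
    B (Finsupp.single C 1) (Finsupp.single C 1) = -2
  E : AddSubgroup (P →₀ ℤ)
  null : ∀ x ∈ E, ∀ y, B x y = 0
  eff : ∀ D : P →₀ ℕ, toZ D ∈ E → D = 0
  dv : V → P →₀ ℕ
  x0 : P →₀ ℤ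
  lin : ∀ s ≠ 0, toZ (dv s) - x0 ∈ E
  add : ∀ F s t, s ≠ 0 → t ≠ 0 → s + t ≠ 0 → F ≤ dv s → F ≤ dv t → F ≤ dv (s + t)
  smul : ∀ (c : ℂ) s, c ≠ 0 → s ≠ 0 → dv (c • s) = dv s
  uniq : ∀ s t, s ≠ 0 → t ≠ 0 → dv s = dv t → ∃ c : ℂ, t = c • s
  rr : ∀ F : P →₀ ℕ, B (x0 - toZ F) (x0 - toZ F) = 0 →
    (∃ W : Submodule ℂ V, 2 ≤ finrank ℂ W ∧ ∀ s ∈ W, s ≠ 0 → F ≤ dv s) ∨
      ∃ D : P →₀ ℕ, toZ D - toZ F + x0 ∈ E

namespace IsoTh

variable {P V : Type*} [AddCommGroup V] [Module ℂ V] (T : IsoTh P V)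

/-- sections vanishing on `F` -/
def VF (F : P →₀ ℕ) : Submodule ℂ V where
  carrier := {s | s = 0 ∨ F ≤ T.dv s}
  zero_mem' := Or.inl rfl
  add_mem' := by
    intro s t hs ht
    by_cases h0 : s = 0
    · rw [h0, zero_add]; exact ht
    by_cases h1 : t = 0
    · rw [h1, add_zero]; exact hs
    by_cases h2 : s + t = 0
    · exact Or.inl h2
    exact Or.inr (T.add F s t h0 h1 h2 (hs.resolve_left h0) (ht.resolve_left h1))
  smul_mem' := by
    intro c s hs
    by_cases hc : c = 0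
    · rw [hc, zero_smul]; exact Or.inl rfl
    rcases hs with hs | hs
    · rw [hs, smul_zero]; exact Or.inl rfl
    · by_cases h0 : s = 0
      · rw [h0, smul_zero]; exact Or.inl rfl
      · exact Or.inr (by rw [T.smul c s hc h0]; exact hs)

theorem mem_VF {F : P →₀ ℕ} {s : V} : s ∈ T.VF F ↔ s = 0 ∨ F ≤ T.dv s := Iff.rfl

theorem VF_anti {F F' : P →₀ ℕ} (h : F ≤ F') : T.VF F' ≤ T.VF F := by
  intro s hs
  rcases hs with hs | hs
  · exact Or.inl hs
  · exact Or.inr (h.trans hs)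

/-- the class of a curve -/
noncomputable abbrev e (C : P) : P →₀ ℤ := Finsupp.single C 1

theorem toZ_eq_sum (D : P →₀ ℕ) : toZ D = D.sum fun C k => (k : ℤ) • (e C : P →₀ ℤ) := by
  classical
  conv_lhs => rw [← Finsupp.sum_single D, Finsupp.sum, map_sum]
  rw [Finsupp.sum]
  refine Finset.sum_congr rfl fun C _ => ?_
  rw [toZ_single, Finsupp.smul_single, smul_eq_mul, mul_one]

theorem B_toZ (y : P →₀ ℤ) (D : P →₀ ℕ) :
    T.B y (toZ D) = D.sum fun C k => (k : ℤ) * T.B y (e C) := by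
  rw [toZ_eq_sum, Finsupp.sum, Finsupp.sum, map_sum]
  refine Finset.sum_congr rfl fun C _ => ?_
  rw [map_zsmul, smul_eq_mul]

theorem B_toZ_nonneg (y : P →₀ ℤ) (D : P →₀ ℕ) (h : ∀ C ∈ D.support, 0 ≤ T.B y (e C)) :
    0 ≤ T.B y (toZ D) := by
  rw [T.B_toZ, Finsupp.sum]
  exact Finset.sum_nonneg fun C hC => mul_nonneg (Int.natCast_nonneg _) (h C hC)

/-- an effective divisor which does not contain `C` meets `C` nonnegatively -/
theorem B_eff_nonneg (D : P →₀ ℕ) (C : P) (h : D C = 0) : 0 ≤ T.B (toZ D) (e C) := by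
  rw [T.symm]
  refine T.B_toZ_nonneg _ _ fun C' hC' => ?_
  refine T.nonneg C C' ?_
  rintro rfl
  exact Finsupp.mem_support_iff.1 hC' h

/-- the only member of `|kC|` is `kC` if `C² < 0` -/
theorem eq_of_neg {C : P} (hC : T.B (e C) (e C) < 0) (k : ℕ) : ∀ D : P →₀ ℕ,
    toZ D - toZ (Finsupp.single C k) ∈ T.E → D = Finsupp.single C k := by
  classical
  induction k with
  | zero =>
    intro D hD
    rw [Finsupp.single_zero, map_zero, sub_zero] at hD
    rw [Finsupp.single_zero]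
    exact T.eff D hD
  | succ k ih =>
    intro D hD
    have h1 : T.B (toZ D) (e C) = (k + 1 : ℕ) * T.B (e C) (e C) := by
      have h2 := T.null _ hD (e C)
      rw [map_sub, AddMonoidHom.sub_apply, toZ_single] at h2
      have h3 : (Finsupp.single C ((k + 1 : ℕ) : ℤ) : P →₀ ℤ) = ((k + 1 : ℕ) : ℤ) • e C := by
        rw [Finsupp.smul_single, smul_eq_mul, mul_one]
      rw [h3, map_zsmul, AddMonoidHom.zsmul_apply, smul_eq_mul] at h2
      linarith
    have h4 : D C ≠ 0 := by
      intro h0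
      have h5 := T.B_eff_nonneg D C h0
      rw [h1] at h5
      have : ((k + 1 : ℕ) : ℤ) * T.B (e C) (e C) < 0 :=
        mul_neg_of_pos_of_neg (by positivity) hC
      linarith
    obtain ⟨D', rfl⟩ : ∃ D', D = D' + Finsupp.single C 1 := by
      refine ⟨D - Finsupp.single C 1, ?_⟩
      rw [tsub_add_cancel_of_le]
      rw [Finsupp.single_le_iff]
      exact Nat.one_le_iff_ne_zero.2 h4
    rw [Finsupp.single_add, ih D']
    rw [Finsupp.single_add, map_add, map_add, add_sub_add_right_eq_sub] at hD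
    exact hD

section fixed

variable (W : Submodule ℂ V)

/-- the fixed part of the system `W` -/
noncomputable def fix {s : V} (_ : s ∈ W ∧ s ≠ 0) : P →₀ ℕ :=
  Finsupp.onFinset (T.dv s).support (fun C => sInf {n | ∃ t ∈ W, t ≠ 0 ∧ n = T.dv t C}) (by
    rename_i hs
    intro C hC
    rw [Finsupp.mem_support_iff]
    intro h0
    apply hC
    have : sInf {n | ∃ t ∈ W, t ≠ 0 ∧ n = T.dv t C} ≤ 0 := Nat.sInf_le ⟨s, hs.1, hs.2, h0.symm⟩
    omega)

variable {W} {s0 : V} (hs0 : s0 ∈ W ∧ s0 ≠ 0)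

theorem fix_le {s : V} (hs : s ∈ W) (h0 : s ≠ 0) : T.fix W hs0 ≤ T.dv s := by
  intro C
  exact Nat.sInf_le ⟨s, hs, h0, rfl⟩

theorem exists_fix (C : P) : ∃ s ∈ W, s ≠ 0 ∧ T.dv s C = T.fix W hs0 C := by
  have h : sInf {n | ∃ t ∈ W, t ≠ 0 ∧ n = T.dv t C} ∈ {n | ∃ t ∈ W, t ≠ 0 ∧ n = T.dv t C} :=
    Nat.sInf_mem ⟨_, s0, hs0.1, hs0.2, rfl⟩
  obtain ⟨t, ht, ht0, h1⟩ := h
  exact ⟨t, ht, ht0, h1.symm⟩

theorem le_fix {F : P →₀ ℕ} (h : ∀ s ∈ W, s ≠ 0 → F ≤ T.dv s) : F ≤ T.fix W hs0 := by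
  intro C
  obtain ⟨s, hs, h0, h1⟩ := T.exists_fix hs0 C
  rw [← h1]
  exact h s hs h0 C

/-- a member with given behaviour along finitely many curves -/
theorem exists_generic (S : Finset P) : ∃ s ∈ W, s ≠ 0 ∧ ∀ C ∈ S, T.dv s C = T.fix W hs0 C := by
  classical
  set G := T.fix W hs0 with hG
  by_contra hcon
  push Not at hcon
  -- the subspaces of sections vanishing more along `C`
  let U : P → Submodule ℂ W := fun C => (T.VF (G + Finsupp.single C 1)).comap W.subtype
  have hU : ∀ C, U C ≠ ⊤ := by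
    intro C hC
    obtain ⟨s, hs, h0, h1⟩ := T.exists_fix hs0 C
    have h2 : (⟨s, hs⟩ : W) ∈ U C := by rw [hC]; trivial
    have h3 : s ∈ T.VF (G + Finsupp.single C 1) := h2
    rcases h3 with h3 | h3
    · exact h0 h3
    · have h4 := h3 C
      rw [Finsupp.add_apply, Finsupp.single_eq_same, h1, ← hG] at h4
      omega
  have h2 := Subspace.biUnion_ne_univ_of_top_notMem (k := ℂ) (E := W) (s := insert ⊥ (S.image U))
    (by
      intro h
      rw [Finset.mem_insert, Finset.mem_image] at h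
      rcases h with h | ⟨C, -, h⟩
      · obtain ⟨hs, h0⟩ := hs0
        have : (⟨s0, hs⟩ : W) ∈ (⊥ : Submodule ℂ W) := by rw [← h]; trivial
        rw [Submodule.mem_bot] at this
        exact h0 (congrArg Subtype.val this)
      · exact hU C h)
  apply h2
  rw [Set.eq_univ_iff_forall]
  intro w
  rw [Set.mem_iUnion₂]
  by_cases hw : (w : V) = 0
  · refine ⟨⊥, Finset.mem_insert_self _ _, ?_⟩
    rw [SetLike.mem_coe, Submodule.mem_bot]
    exact Subtype.ext hw
  · obtain ⟨C, hC, h3⟩ := hcon w w.2 hw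
    refine ⟨U C, Finset.mem_insert_of_mem (Finset.mem_image_of_mem U hC), ?_⟩
    show (w : V) ∈ T.VF (G + Finsupp.single C 1)
    refine Or.inr fun C' => ?_
    have h4 := T.fix_le hs0 w.2 hw
    by_cases h5 : C' = C
    · subst h5
      rw [Finsupp.add_apply, Finsupp.single_eq_same]
      have := h4 C'
      rw [← hG] at this
      omega
    · rw [Finsupp.add_apply, Finsupp.single_eq_of_ne h5, add_zero]
      exact h4 C'

/-- the moving part meets every curve nonnegatively -/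
theorem moving_nonneg (C : P) : 0 ≤ T.B (T.x0 - toZ (T.fix W hs0)) (e C) := by
  obtain ⟨s, hs, h0, h1⟩ := T.exists_fix hs0 C
  have h2 := T.null _ (T.lin s h0) (e C)
  have h3 := T.B_eff_nonneg (T.dv s - T.fix W hs0) C (by
    rw [Finsupp.tsub_apply, h1, tsub_self])
  have h4 : toZ (T.dv s) = toZ (T.dv s - T.fix W hs0) + toZ (T.fix W hs0) := by
    rw [← map_add, tsub_add_cancel_of_le (T.fix_le hs0 hs h0)]
  rw [h4, map_sub, AddMonoidHom.sub_apply, map_add, AddMonoidHom.add_apply] at h2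
  rw [map_sub, AddMonoidHom.sub_apply]
  linarith

theorem moving_eff_nonneg (D : P →₀ ℕ) : 0 ≤ T.B (T.x0 - toZ (T.fix W hs0)) (toZ D) :=
  T.B_toZ_nonneg _ _ fun C _ => T.moving_nonneg hs0 C

end fixed

theorem B_congr_left {x x' : P →₀ ℤ} (h : x - x' ∈ T.E) (y : P →₀ ℤ) : T.B x y = T.B x' y := by
  have := T.null _ h y
  rw [map_sub, AddMonoidHom.sub_apply] at this
  linarith

theorem B_congr_right {x x' : P →₀ ℤ} (h : x - x' ∈ T.E) (y : P →₀ ℤ) : T.B y x = T.B y x' := by
  rw [T.symm, T.B_congr_left h, T.symm]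

variable [FiniteDimensional ℂ V]

/-- number of components -/
noncomputable def deg (D : P →₀ ℕ) : ℕ := D.sum fun _ k => k

theorem deg_add (D D' : P →₀ ℕ) : deg (D + D') = deg D + deg D' := by
  classical
  exact Finsupp.sum_add_index' (fun _ => rfl) (fun _ _ _ => rfl)

theorem deg_single (C : P) (k : ℕ) : deg (Finsupp.single C k) = k := by
  classical
  exact Finsupp.sum_single_index rfl

theorem deg_mono {D D' : P →₀ ℕ} (h : D ≤ D') : deg D ≤ deg D' := by
  obtain ⟨c, rfl⟩ := exists_add_of_le h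
  rw [deg_add]
  omega

/-- **the combinatorial main theorem** -/
theorem main (h2 : 2 ≤ finrank ℂ V) (hx : T.B T.x0 T.x0 = 0) :
    ∃ (s t : V) (G D₁ D₂ : P →₀ ℕ), s ≠ 0 ∧ t ≠ 0 ∧ T.dv s = G + D₁ ∧ T.dv t = G + D₂ ∧
      D₁ ≠ 0 ∧ Disjoint D₁.support D₂.support ∧ T.B (toZ D₁) (toZ D₂) = 0 := by
  classical
  -- the admissible `F`
  let Ok : (P →₀ ℕ) → Prop := fun F =>
    T.B (T.x0 - toZ F) (T.x0 - toZ F) = 0 ∧ 2 ≤ finrank ℂ (T.VF F)
  have hV0 : T.VF 0 = ⊤ := by
    rw [eq_top_iff]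
    intro s _
    exact Or.inr (zero_le)
  have hOk0 : Ok 0 := by
    refine ⟨by rw [map_zero, sub_zero]; exact hx, ?_⟩
    rw [hV0, finrank_top]
    exact h2
  -- minimal dimension
  obtain ⟨F1, hF1, hmin⟩ : ∃ F1, Ok F1 ∧ ∀ F, Ok F → finrank ℂ (T.VF F1) ≤ finrank ℂ (T.VF F) := by
    have hne : {n | ∃ F, Ok F ∧ n = finrank ℂ (T.VF F)}.Nonempty := ⟨_, 0, hOk0, rfl⟩
    obtain ⟨F1, h1, h2⟩ := Nat.sInf_mem hne
    refine ⟨F1, h1, fun F hF => ?_⟩
    rw [← h2]
    exact Nat.sInf_le ⟨F, hF, rfl⟩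
  have hpos : ∀ {W : Submodule ℂ V}, 2 ≤ finrank ℂ W → ∃ s, s ∈ W ∧ s ≠ 0 := by
    intro W hW
    have : W ≠ ⊥ := by
      rintro rfl
      rw [finrank_bot] at hW
      omega
    exact W.ne_bot_iff.1 this
  obtain ⟨s1, hs1⟩ := hpos hF1.2
  -- maximal degree
  obtain ⟨F, hF, hFV, hmax⟩ : ∃ F, Ok F ∧ T.VF F = T.VF F1 ∧
      ∀ F', Ok F' → T.VF F' = T.VF F1 → deg F' ≤ deg F := by
    let S : Set ℕ := {n | ∃ F, Ok F ∧ T.VF F = T.VF F1 ∧ n = deg F}
    have hne : S.Nonempty := ⟨_, F1, hF1, rfl, rfl⟩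
    have hbd : BddAbove S := by
      refine ⟨deg (T.dv s1), ?_⟩
      rintro n ⟨F, -, h1, rfl⟩
      refine deg_mono ?_
      have : s1 ∈ T.VF F := by rw [h1]; exact hs1.1
      exact this.resolve_left hs1.2
    obtain ⟨F, h1, h2, h3⟩ := Nat.sSup_mem hne hbd
    refine ⟨F, h1, h2, fun F' h4 h5 => ?_⟩
    rw [← h3]
    exact le_csSup hbd ⟨F', h4, h5, rfl⟩
  set W := T.VF F with hW
  have hsW : s1 ∈ W ∧ s1 ≠ 0 := ⟨by rw [hFV]; exact hs1.1, hs1.2⟩
  set G := T.fix W hsW with hG
  have hFG : F ≤ G := T.le_fix hsW fun s hs h0 => hs.resolve_left h0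
  obtain ⟨Z, hZ⟩ := exists_add_of_le hFG
  set M := T.x0 - toZ G with hM
  -- not all members are equal
  have hnot : ∀ D : P →₀ ℕ, ∃ s ∈ W, s ≠ 0 ∧ T.dv s ≠ D := by
    intro D
    by_contra hcon
    push Not at hcon
    have h3 : W ≤ Submodule.span ℂ {s1} := by
      intro s hs
      by_cases h0 : s = 0
      · rw [h0]; exact zero_mem _
      · obtain ⟨c, hc⟩ := T.uniq s1 s hsW.2 h0
          ((hcon s1 hsW.1 hsW.2).trans (hcon s hs h0).symm)
        rw [hc]
        exact Submodule.smul_mem _ _ (Submodule.mem_span_singleton_self _)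
    have h4 := Submodule.finrank_mono h3
    rw [finrank_span_singleton hsW.2] at h4
    have h5 : 2 ≤ finrank ℂ W := hF.2
    omega
  have hMM : T.B M M = 0 := by
    have h0 : 0 ≤ T.B M M := by
      have h3 := T.lin s1 hsW.2
      obtain ⟨D, hD⟩ := exists_add_of_le (T.fix_le hsW hsW.1 hsW.2)
      have h4 : T.B M M = T.B M (toZ D) := by
        refine T.B_congr_right ?_ M
        rw [hD, ← hG, map_add] at h3
        have := T.E.neg_mem h3
        convert this using 1
        rw [hM]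
        abel
      rw [h4]
      exact T.moving_eff_nonneg hsW D
    by_contra hne
    have hpos' : 0 < T.B M M := lt_of_le_of_ne h0 (Ne.symm hne)
    -- `x = x0 - F = M + Z`
    have hx1 : T.x0 - toZ F = M + toZ Z := by
      rw [hM, hZ, map_add]
      abel
    have hx2 : T.B (M + toZ Z) (M + toZ Z) = 0 := by rw [← hx1]; exact hF.1
    have hMZ : 0 ≤ T.B M (toZ Z) := T.moving_eff_nonneg hsW Z
    have hxM : 0 < T.B (M + toZ Z) M := by
      rw [map_add, AddMonoidHom.add_apply, T.symm (toZ Z) M]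
      linarith
    have hxZ : T.B (M + toZ Z) (toZ Z) < 0 := by
      have : T.B (M + toZ Z) (M + toZ Z) = T.B (M + toZ Z) M + T.B (M + toZ Z) (toZ Z) := by
        rw [map_add (T.B (M + toZ Z))]
      linarith
    obtain ⟨C, hCZ, hC⟩ : ∃ C ∈ Z.support, T.B (M + toZ Z) (e C) < 0 := by
      by_contra hcon
      push Not at hcon
      exact absurd (T.B_toZ_nonneg _ Z hcon) (not_le.2 hxZ)
    have hZC : T.B (toZ Z) (e C) < 0 := by
      have h3 := T.moving_nonneg hsW C
      rw [← hG, ← hM] at h3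
      rw [map_add, AddMonoidHom.add_apply] at hC
      linarith
    have hCC : T.B (e C) (e C) < 0 := by
      by_contra hcon
      push Not at hcon
      rw [T.symm] at hZC
      refine absurd (T.B_toZ_nonneg (e C) Z fun C' _ => ?_) (not_le.2 hZC)
      by_cases h3 : C' = C
      · rw [h3]; exact hcon
      · exact T.nonneg C C' (Ne.symm h3)
    have hCC2 := T.self C hCC
    obtain ⟨k, hk⟩ : ∃ k : ℕ, T.B (M + toZ Z) (e C) = -(k : ℤ) := by
      refine ⟨(-(T.B (M + toZ Z) (e C))).toNat, ?_⟩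
      rw [Int.toNat_of_nonneg (by linarith)]
      ring
    have hk0 : 0 < k := by
      rcases Nat.eq_zero_or_pos k with h3 | h3
      · rw [h3] at hk; simp only [Nat.cast_zero, neg_zero] at hk; omega
      · exact h3
    set F' := F + Finsupp.single C k with hF'
    have hx' : T.x0 - toZ F' = (M + toZ Z) - (k : ℤ) • e C := by
      rw [hF', map_add, toZ_single, Finsupp.smul_single, smul_eq_mul, mul_one, ← hx1]
      abel
    have hxx' : T.B (T.x0 - toZ F') (T.x0 - toZ F') = 0 := by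
      have e1 : T.B (T.x0 - toZ F') (T.x0 - toZ F') = T.B (M + toZ Z) (M + toZ Z) -
          2 * (k * T.B (M + toZ Z) (e C)) + k * (k * T.B (e C) (e C)) := by
        rw [hx']
        generalize M + toZ Z = y
        rw [map_sub T.B, AddMonoidHom.sub_apply, map_sub (T.B y), map_sub (T.B ((k : ℤ) • e C)),
          map_zsmul T.B, AddMonoidHom.zsmul_apply, AddMonoidHom.zsmul_apply, map_zsmul,
          map_zsmul, T.symm (e C) y]
        simp only [smul_eq_mul]
        ring
      rw [e1, hx2, hk, hCC2]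
      ring
    rcases T.rr F' hxx' with ⟨W', hW', hW2⟩ | ⟨D, hD⟩
    · have h3 : W' ≤ T.VF F' := by
        intro s hs
        by_cases h0 : s = 0
        · exact Or.inl h0
        · exact Or.inr (hW2 s hs h0)
      have h4 : 2 ≤ finrank ℂ (T.VF F') := hW'.trans (Submodule.finrank_mono h3)
      have h5 : Ok F' := ⟨hxx', h4⟩
      have h6 : T.VF F' ≤ T.VF F := T.VF_anti (le_self_add)
      have h7 : T.VF F' = T.VF F := by
        refine Submodule.eq_of_le_of_finrank_le h6 ?_
        rw [← hW, hFV]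
        exact hmin F' h5
      have h8 := hmax F' h5 (by rw [h7, ← hW, hFV])
      rw [hF', deg_add, deg_single] at h8
      omega
    · -- all members of `W` are equal
      have h3 : ∀ s ∈ W, s ≠ 0 → T.dv s = Finsupp.single C k + F - D := by
        intro s hs h0
        obtain ⟨A, hA⟩ := exists_add_of_le (hs.resolve_left h0 : F ≤ T.dv s)
        have h4 : A + D = Finsupp.single C k := by
          refine T.eq_of_neg hCC k _ ?_
          have h5 := T.E.add_mem (T.lin s h0) hD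
          convert h5 using 1
          rw [hF', hA]
          simp only [map_add]
          abel
        rw [hA]
        ext C'
        have h5 := congrArg (fun f => f C') h4
        simp only [Finsupp.add_apply, Finsupp.tsub_apply] at h5 ⊢
        omega
      obtain ⟨s, hs, h0, h4⟩ := hnot (Finsupp.single C k + F - D)
      exact h4 (h3 s hs h0)
  -- conclusion
  obtain ⟨s, hs, hs0, hsG⟩ := hnot G
  obtain ⟨t, ht, ht0, h3⟩ := T.exists_generic hsW (T.dv s).support
  obtain ⟨D₁, hD₁⟩ := exists_add_of_le (T.fix_le hsW hs hs0)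
  obtain ⟨D₂, hD₂⟩ := exists_add_of_le (T.fix_le hsW ht ht0)
  rw [← hG] at hD₁ hD₂
  refine ⟨s, t, G, D₁, D₂, hs0, ht0, hD₁, hD₂, ?_, ?_, ?_⟩
  · rintro rfl
    rw [add_zero] at hD₁
    exact hsG hD₁
  · rw [Finset.disjoint_left]
    intro C hC hC'
    have h4 : C ∈ (T.dv s).support := by
      rw [Finsupp.mem_support_iff] at hC ⊢
      rw [hD₁, Finsupp.add_apply]
      omega
    have h5 := h3 C h4
    rw [hD₂, ← hG, Finsupp.add_apply] at h5
    rw [Finsupp.mem_support_iff] at hC'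
    omega
  · have e1 : toZ D₁ - M ∈ T.E := by
      have := T.lin s hs0
      rw [hD₁, map_add] at this
      convert this using 1
      rw [hM]
      abel
    have e2 : toZ D₂ - M ∈ T.E := by
      have := T.lin t ht0
      rw [hD₂, map_add] at this
      convert this using 1
      rw [hM]
      abel
    rw [T.B_congr_left e1, T.B_congr_right e2, hMM]

end IsoTh

end Vale.Agent.P290.H220.Iso
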