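import Vale.Agent.P267.H399.Wirt

/-!
# P290 / H220: mixed Monge-Ampere densities on `ℂ²` and Stokes' theorem

`MA u v = u_{00̄} v_{11̄} + u_{11̄} v_{00̄} - u_{01̄} v_{10̄} - u_{10̄} v_{01̄}`.
-/

set_option linter.unusedVariables false

open scoped Manifold ContDiff ComplexConjugate
open MeasureTheory Set Filter Topology
open Vale.Agent.P267.FL

noncomputable section

namespace Vale.Agent.P290.H220

theorem two_le_infty : (2 : WithTop ℕ∞) ≤ ∞ := ENat.LEInfty.out

/-- `G` is smooth and equal to the logarithm on `[c, ∞)` -/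
structure CutLog (G : ℝ → ℝ) (c : ℝ) : Prop where
  pos : 0 < c
  smooth : ContDiff ℝ ∞ G
  eq : ∀ r, c ≤ r → G r = Real.log r

/-- mixed second derivative `∂_i ∂̄_j u` -/
def lv (i j : Fin 2) (u : C2 → ℂ) (z : C2) : ℂ := dz i (dzb j u) z

/-- mixed Monge-Ampere density -/
def MA (u v : C2 → ℂ) (z : C2) : ℂ :=
  lv 0 0 u z * lv 1 1 v z + lv 1 1 u z * lv 0 0 v z -
    lv 0 1 u z * lv 1 0 v z - lv 1 0 u z * lv 0 1 v z

theorem MA_comm (u v : C2 → ℂ) (z : C2) : MA u v z = MA v u z := by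
  unfold MA; ring

theorem lv_congr {u v : C2 → ℂ} {z : C2} (h : u =ᶠ[𝓝 z] v) (i j : Fin 2) :
    lv i j u z = lv i j v z := by
  unfold lv
  refine dz_congr ?_ i
  filter_upwards [h.eventually_nhds] with y hy
  exact dzb_congr hy j

theorem MA_congr {u v u' v' : C2 → ℂ} {z : C2} (h : u =ᶠ[𝓝 z] u') (h' : v =ᶠ[𝓝 z] v') :
    MA u v z = MA u' v' z := by
  unfold MA
  simp only [lv_congr h, lv_congr h']

theorem lv_const (c : ℂ) (z : C2) (i j : Fin 2) : lv i j (fun _ => c) z = 0 := by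
  unfold lv
  have : dzb j (fun _ : C2 => c) = fun _ => 0 := by
    ext y; simp
  rw [this]; simp

theorem cd_dzb {u : C2 → ℂ} {z : C2} (hu : ContDiffAt ℝ 2 u z) (j : Fin 2) :
    ∀ᶠ y in 𝓝 z, DifferentiableAt ℝ u y :=
  (hu.eventually (by simp)).mono fun y hy => hy.differentiableAt (by norm_num)

theorem lv_add {u v : C2 → ℂ} {z : C2} (hu : ContDiffAt ℝ 2 u z) (hv : ContDiffAt ℝ 2 v z)
    (i j : Fin 2) : lv i j (fun y => u y + v y) z = lv i j u z + lv i j v z := by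
  unfold lv
  have h1 : dzb j (fun y => u y + v y) =ᶠ[𝓝 z] fun y => dzb j u y + dzb j v y := by
    filter_upwards [cd_dzb hu j, cd_dzb hv j] with y h1 h2
    exact dzb_add h1 h2 j
  rw [dz_congr h1, dz_add]
  · exact (contDiffAt_dzb hu (m := 1) (by norm_num) j).differentiableAt (by norm_num)
  · exact (contDiffAt_dzb hv (m := 1) (by norm_num) j).differentiableAt (by norm_num)

theorem lv_sub {u v : C2 → ℂ} {z : C2} (hu : ContDiffAt ℝ 2 u z) (hv : ContDiffAt ℝ 2 v z)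
    (i j : Fin 2) : lv i j (fun y => u y - v y) z = lv i j u z - lv i j v z := by
  unfold lv
  have h1 : dzb j (fun y => u y - v y) =ᶠ[𝓝 z] fun y => dzb j u y - dzb j v y := by
    filter_upwards [cd_dzb hu j, cd_dzb hv j] with y h1 h2
    exact dzb_sub h1 h2 j
  rw [dz_congr h1, dz_sub]
  · exact (contDiffAt_dzb hu (m := 1) (by norm_num) j).differentiableAt (by norm_num)
  · exact (contDiffAt_dzb hv (m := 1) (by norm_num) j).differentiableAt (by norm_num)

theorem lv_cmul (c : ℂ) {u : C2 → ℂ} {z : C2} (hu : ContDiffAt ℝ 2 u z)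
    (i j : Fin 2) : lv i j (fun y => c * u y) z = c * lv i j u z := by
  unfold lv
  have h1 : dzb j (fun y => c * u y) =ᶠ[𝓝 z] fun y => c • dzb j u y := by
    filter_upwards [cd_dzb hu j] with y h1
    exact dzb_const_smul c h1 j
  rw [dz_congr h1, dz_const_smul]
  · rfl
  · exact (contDiffAt_dzb hu (m := 1) (by norm_num) j).differentiableAt (by norm_num)

theorem lv_conj {u : C2 → ℂ} {z : C2} (hu : ContDiffAt ℝ 2 u z) (i j : Fin 2) :
    lv i j (fun y => conj (u y)) z = conj (lv j i u z) := by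
  unfold lv
  have h1 : dzb j (fun y => conj (u y)) =ᶠ[𝓝 z] fun y => conj (dz j u y) := by
    filter_upwards [cd_dzb hu j] with y h1
    exact dzb_conj h1 j
  rw [dz_congr h1, dz_conj, dz_dzb_comm hu]
  exact (contDiffAt_dz hu (m := 1) (by norm_num) j).differentiableAt (by norm_num)

theorem lv_hol {u : C2 → ℂ} {z : C2} (hu : ∀ᶠ y in 𝓝 z, DifferentiableAt ℂ u y) (i j : Fin 2) :
    lv i j u z = 0 := by
  unfold lv
  have h1 : dzb j u =ᶠ[𝓝 z] fun _ => 0 := by
    filter_upwards [hu] with y h1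
    exact dzb_of_hol h1 j
  rw [dz_congr h1]; simp

theorem MA_add_left {u u' v : C2 → ℂ} {z : C2} (hu : ContDiffAt ℝ 2 u z)
    (hu' : ContDiffAt ℝ 2 u' z) : MA (fun y => u y + u' y) v z = MA u v z + MA u' v z := by
  unfold MA
  simp only [lv_add hu hu']; ring

theorem MA_sub_left {u u' v : C2 → ℂ} {z : C2} (hu : ContDiffAt ℝ 2 u z)
    (hu' : ContDiffAt ℝ 2 u' z) : MA (fun y => u y - u' y) v z = MA u v z - MA u' v z := by
  unfold MA
  simp only [lv_sub hu hu']; ring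

theorem MA_sub_right {u v v' : C2 → ℂ} {z : C2} (hv : ContDiffAt ℝ 2 v z)
    (hv' : ContDiffAt ℝ 2 v' z) : MA u (fun y => v y - v' y) z = MA u v z - MA u v' z := by
  unfold MA
  simp only [lv_sub hv hv']; ring

theorem MA_cmul_left (c : ℂ) {u v : C2 → ℂ} {z : C2} (hu : ContDiffAt ℝ 2 u z) :
    MA (fun y => c * u y) v z = c * MA u v z := by
  unfold MA
  simp only [lv_cmul c hu]; ring

theorem MA_conj {u v : C2 → ℂ} {z : C2} (hu : ContDiffAt ℝ 2 u z) (hv : ContDiffAt ℝ 2 v z) :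
    MA (fun y => conj (u y)) (fun y => conj (v y)) z = conj (MA u v z) := by
  unfold MA
  simp only [lv_conj hu, lv_conj hv, map_sub, map_add, map_mul]; ring

theorem MA_zero_left {u v : C2 → ℂ} {z : C2} (h : ∀ i j, lv i j u z = 0) : MA u v z = 0 := by
  unfold MA; simp [h]

theorem MA_zero_right {u v : C2 → ℂ} {z : C2} (h : ∀ i j, lv i j v z = 0) : MA u v z = 0 := by
  unfold MA; simp [h]

theorem contDiffAt_lv {u : C2 → ℂ} {z : C2} (hu : ContDiffAt ℝ ∞ u z) (i j : Fin 2) :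
    ContDiffAt ℝ ∞ (lv i j u) z :=
  contDiffAt_dz (contDiffAt_dzb hu (m := ∞) (by simp) j) (by simp) i

theorem contDiffAt_MA {u v : C2 → ℂ} {z : C2} (hu : ContDiffAt ℝ ∞ u z)
    (hv : ContDiffAt ℝ ∞ v z) : ContDiffAt ℝ ∞ (MA u v) z := by
  unfold MA
  exact ((((contDiffAt_lv hu 0 0).mul (contDiffAt_lv hv 1 1)).add
    ((contDiffAt_lv hu 1 1).mul (contDiffAt_lv hv 0 0))).sub
    ((contDiffAt_lv hu 0 1).mul (contDiffAt_lv hv 1 0))).sub
    ((contDiffAt_lv hu 1 0).mul (contDiffAt_lv hv 0 1))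

/-! ### Stokes -/

theorem integral_fderiv_zero {a : C2 → ℂ} (ha : ContDiff ℝ 1 a) (hc : HasCompactSupport a)
    (v : C2) : ∫ z, fderiv ℝ a z v = 0 := by
  have h := integral_mul_fderiv_eq_neg_fderiv_mul_of_integrable (𝕜 := ℂ)
    (f := fun _ : C2 => (1 : ℂ)) (g := a) (v := v) (μ := volume)
    (by simp) (by
      simp only [one_mul]
      exact ((ha.continuous_fderiv (by norm_num)).clm_apply continuous_const).integrable_of_hasCompactSupport
        (hc.fderiv_apply ℝ v)) (by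
      simp only [one_mul]
      exact ha.continuous.integrable_of_hasCompactSupport hc) (by intros; fun_prop)
      (fun z _ => (ha.differentiable (by norm_num)).differentiableAt)
  simpa using h

theorem integrable_fderiv_apply {a : C2 → ℂ} (ha : ContDiff ℝ 1 a) (hc : HasCompactSupport a)
    (v : C2) : Integrable (fun z => fderiv ℝ a z v) :=
    ((ha.continuous_fderiv (by norm_num)).clm_apply continuous_const).integrable_of_hasCompactSupport
        (hc.fderiv_apply ℝ v)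

theorem integral_dz_zero {a : C2 → ℂ} (ha : ContDiff ℝ 1 a) (hc : HasCompactSupport a)
    (i : Fin 2) : ∫ z, dz i a z = 0 := by
  have hi := integrable_fderiv_apply ha hc
  unfold dz
  simp only [smul_eq_mul]
  rw [integral_const_mul, integral_sub (hi _) ((hi _).const_mul _), integral_const_mul,
    integral_fderiv_zero ha hc, integral_fderiv_zero ha hc]
  simp

theorem integrable_dz {a : C2 → ℂ} (ha : ContDiff ℝ 1 a) (hc : HasCompactSupport a)
    (i : Fin 2) : Integrable (dz i a) := by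
  have hi := integrable_fderiv_apply ha hc
  unfold dz
  simp only [smul_eq_mul]
  exact ((hi _).sub ((hi _).const_mul _)).const_mul _

/-- extension by zero of a function smooth on `Ω`, vanishing on `Ω \ K` -/
theorem contDiff_indicator {Ω K : Set C2} (hΩ : IsOpen Ω) (hK : IsClosed K) (hKΩ : K ⊆ Ω)
    {a : C2 → ℂ} (ha : ContDiffOn ℝ ∞ a Ω) (h0 : ∀ z ∈ Ω, z ∉ K → a z = 0) :
    ContDiff ℝ ∞ (Ω.indicator a) := by
  rw [contDiff_iff_contDiffAt]
  intro z
  by_cases hz : z ∈ Ω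
  · refine (ha.contDiffAt (hΩ.mem_nhds hz)).congr_of_eventuallyEq ?_
    filter_upwards [hΩ.mem_nhds hz] with y hy
    simp [hy]
  · have hzK : z ∉ K := fun h => hz (hKΩ h)
    have : Ω.indicator a =ᶠ[𝓝 z] fun _ => 0 := by
      filter_upwards [hK.isOpen_compl.mem_nhds hzK] with y hy
      by_cases hyΩ : y ∈ Ω
      · simp [hyΩ, h0 y hyΩ hy]
      · simp [hyΩ]
    exact contDiffAt_const.congr_of_eventuallyEq this

theorem hasCompactSupport_indicator {Ω K : Set C2} (hK : IsCompact K)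
    {a : C2 → ℂ} (h0 : ∀ z ∈ Ω, z ∉ K → a z = 0) : HasCompactSupport (Ω.indicator a) := by
  refine HasCompactSupport.intro hK fun z hz => ?_
  by_cases h : z ∈ Ω
  · simp [h, h0 z h hz]
  · simp [h]

/-- **Stokes**: if `∂̄q ∧ ∂∂̄v` has compact support in `Ω`, then `∫_Ω MA q v = 0`. -/
theorem stokes {Ω K : Set C2} (hΩ : IsOpen Ω) (hK : IsCompact K) (hKΩ : K ⊆ Ω)
    {q v : C2 → ℂ} (hq : ContDiffOn ℝ ∞ q Ω) (hv : ContDiffOn ℝ ∞ v Ω)
    (h0 : ∀ z ∈ Ω, z ∉ K → (∀ j, dzb j q z = 0) ∨ ∀ i j, lv i j v z = 0) :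
    IntegrableOn (MA q v) Ω ∧ ∫ z in Ω, MA q v z = 0 := by
  have hqd : ∀ j, ContDiffOn ℝ ∞ (dzb j q) Ω := fun j => contDiffOn_dzb hΩ hq (by simp) j
  have hvd : ∀ j, ContDiffOn ℝ ∞ (dzb j v) Ω := fun j => contDiffOn_dzb hΩ hv (by simp) j
  have hvl : ∀ i j, ContDiffOn ℝ ∞ (lv i j v) Ω := fun i j => contDiffOn_dz hΩ (hvd j) (by simp) i
  set a : Fin 2 → C2 → ℂ := ![fun z => dzb 0 q z * lv 1 1 v z - dzb 1 q z * lv 1 0 v z,
    fun z => dzb 1 q z * lv 0 0 v z - dzb 0 q z * lv 0 1 v z] with ha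
  have hac : ∀ i, ContDiffOn ℝ ∞ (a i) Ω := by
    intro i
    fin_cases i
    · exact ((hqd 0).mul (hvl 1 1)).sub ((hqd 1).mul (hvl 1 0))
    · exact ((hqd 1).mul (hvl 0 0)).sub ((hqd 0).mul (hvl 0 1))
  have ha0 : ∀ i, ∀ z ∈ Ω, z ∉ K → a i z = 0 := by
    intro i z hz hzK
    rcases h0 z hz hzK with h | h
    · fin_cases i <;> simp [ha, h]
    · fin_cases i <;> simp [ha, h]
  have hcd : ∀ i, ContDiff ℝ 1 (Ω.indicator (a i)) := fun i =>
    (contDiff_indicator hΩ hK.isClosed hKΩ (hac i) (ha0 i)).of_le (by simp)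
  have hcs : ∀ i, HasCompactSupport (Ω.indicator (a i)) := fun i =>
    hasCompactSupport_indicator hK (ha0 i)
  have hid : ∀ z ∈ Ω, dz 0 (Ω.indicator (a 0)) z + dz 1 (Ω.indicator (a 1)) z = MA q v z := by
    intro z hz
    have he : ∀ i, Ω.indicator (a i) =ᶠ[𝓝 z] a i := by
      intro i
      filter_upwards [hΩ.mem_nhds hz] with y hy
      simp [hy]
    rw [dz_congr (he 0), dz_congr (he 1)]
    have hnz := hΩ.mem_nhds hz
    have d1 : ∀ j, DifferentiableAt ℝ (dzb j q) z := fun j =>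
      ((hqd j).contDiffAt hnz).differentiableAt (by simp)
    have d2 : ∀ i j, DifferentiableAt ℝ (lv i j v) z := fun i j =>
      ((hvl i j).contDiffAt hnz).differentiableAt (by simp)
    have c1 : ∀ j, dz 0 (lv 1 j v) z = dz 1 (lv 0 j v) z := fun j =>
      dz_dz_comm (((hvd j).contDiffAt hnz).of_le two_le_infty) 0 1
    have e0 : dz 0 (a 0) z = dzb 0 q z * dz 0 (lv 1 1 v) z + dz 0 (dzb 0 q) z * lv 1 1 v z -
        (dzb 1 q z * dz 0 (lv 1 0 v) z + dz 0 (dzb 1 q) z * lv 1 0 v z) := by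
      change dz 0 (fun z => dzb 0 q z * lv 1 1 v z - dzb 1 q z * lv 1 0 v z) z = _
      rw [dz_sub ((d1 0).fun_mul (d2 1 1)) ((d1 1).fun_mul (d2 1 0)), dz_mul (d1 0) (d2 1 1),
        dz_mul (d1 1) (d2 1 0)]
    have e1 : dz 1 (a 1) z = dzb 1 q z * dz 1 (lv 0 0 v) z + dz 1 (dzb 1 q) z * lv 0 0 v z -
        (dzb 0 q z * dz 1 (lv 0 1 v) z + dz 1 (dzb 0 q) z * lv 0 1 v z) := by
      change dz 1 (fun z => dzb 1 q z * lv 0 0 v z - dzb 0 q z * lv 0 1 v z) z = _
      rw [dz_sub ((d1 1).fun_mul (d2 0 0)) ((d1 0).fun_mul (d2 0 1)), dz_mul (d1 1) (d2 0 0),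
        dz_mul (d1 0) (d2 0 1)]
    rw [e0, e1, c1 0, c1 1]
    unfold MA
    change _ = lv 0 0 q z * lv 1 1 v z + lv 1 1 q z * lv 0 0 v z -
      lv 0 1 q z * lv 1 0 v z - lv 1 0 q z * lv 0 1 v z
    unfold lv
    ring
  have hint : Integrable fun z => dz 0 (Ω.indicator (a 0)) z + dz 1 (Ω.indicator (a 1)) z :=
    (integrable_dz (hcd 0) (hcs 0) 0).add (integrable_dz (hcd 1) (hcs 1) 1)
  refine ⟨(hint.integrableOn (s := Ω)).congr_fun hid hΩ.measurableSet, ?_⟩
  rw [← setIntegral_congr_fun hΩ.measurableSet hid,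
    setIntegral_eq_integral_of_forall_compl_eq_zero]
  · rw [integral_add (integrable_dz (hcd 0) (hcs 0) 0) (integrable_dz (hcd 1) (hcs 1) 1),
      integral_dz_zero (hcd 0) (hcs 0), integral_dz_zero (hcd 1) (hcs 1), add_zero]
  · intro z hz
    have hzK : z ∉ K := fun h => hz (hKΩ h)
    have : ∀ i, Ω.indicator (a i) =ᶠ[𝓝 z] fun _ => 0 := by
      intro i
      filter_upwards [hK.isClosed.isOpen_compl.mem_nhds hzK] with y hy
      by_cases hyΩ : y ∈ Ω
      · simp [hyΩ, ha0 i y hyΩ hy]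
      · simp [hyΩ]
    rw [dz_congr (this 0), dz_congr (this 1)]; simp

end Vale.Agent.P290.H220
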