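import Vale.Agent.P290.H220.Indep
import Vale.Agent.P290.H561.IPMain

/-!
# P290 / H220: the local theorem on intersection multiplicities, arbitrary regularisations

(helper561's `loc_mult_MA` combined with the independence lemma.)
-/

set_option linter.unusedVariables false

open scoped Manifold ContDiff ComplexConjugate
open MeasureTheory Set Filter Topology Metric
open Vale.Agent.P267.FL

noncomputable section

namespace Vale.Agent.P290.H220

/-- **the local theorem on intersection multiplicities** -/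
theorem locThm {A A' : Set C2} {f g : C2 → ℂ} {u v : C2 → ℝ} {p : C2} {r : ℝ} {a b : ℕ}
    (hr : 0 < r) (hf : DifferentiableOn ℂ f (ball p r)) (hg : DifferentiableOn ℂ g (ball p r))
    (hu : ContDiffOn ℝ ∞ u (ball p r)) (hv : ContDiffOn ℝ ∞ v (ball p r))
    (hA : IsOpen (ball p r \ A)) (hA' : IsOpen (ball p r \ A'))
    (h1 : ∀ z ∈ ball p r, z ∉ A → f z ≠ 0 ∧ u z = Real.log (‖f z‖ ^ 2))
    (h2 : ∀ z ∈ ball p r, z ∉ A' → g z ≠ 0 ∧ v z = Real.log (‖g z‖ ^ 2))
    (hAA : ∀ z ∈ ball p r, z ∈ A → z ∈ A' → z ∈ closedBall p (r / 2))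
    (h0 : ∀ z ∈ ball p r, f z = 0 → g z = 0 → z = p)
    (hfO : f =O[𝓝 p] fun z => ‖z - p‖ ^ a) (hgO : g =O[𝓝 p] fun z => ‖z - p‖ ^ b) :
    Real.pi ^ 2 * (a * b) ≤
      (∫ z in ball p r, MA (fun z => (u z : ℂ)) (fun z => (v z : ℂ)) z).re := by
  set ρ : ℝ := 3 * r / 4 with hρ
  have hρ0 : 0 < ρ := by positivity
  have hρr : closedBall p ρ ⊆ ball p r := closedBall_subset_ball (by rw [hρ]; linarith)
  have hKρ : closedBall p (r / 2) ⊆ ball p ρ := closedBall_subset_ball (by rw [hρ]; linarith)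
  have hbρ : ball p ρ ⊆ ball p r := ball_subset_closedBall.trans hρr
  have huc : ContDiffOn ℝ ∞ (fun z => (u z : ℂ)) (ball p r) :=
    Complex.ofRealCLM.contDiff.comp_contDiffOn hu
  have hvc : ContDiffOn ℝ ∞ (fun z => (v z : ℂ)) (ball p r) :=
    Complex.ofRealCLM.contDiff.comp_contDiffOn hv
  -- lower bounds of `|f|²` off `A`
  have key : ∀ {f : C2 → ℂ} {u : C2 → ℝ} {A : Set C2}, ContDiffOn ℝ ∞ u (ball p r) →
      (∀ z ∈ ball p r, z ∉ A → f z ≠ 0 ∧ u z = Real.log (‖f z‖ ^ 2)) →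
      ∃ M : ℝ, ∀ z ∈ closedBall p ρ, z ∉ A → Real.exp (-M) ≤ Complex.normSq (f z) := by
    intro f u A hu h1
    obtain ⟨M, hM⟩ := (isCompact_closedBall p ρ).exists_bound_of_continuousOn
      (hu.continuousOn.mono hρr)
    refine ⟨M, fun z hz hzA => ?_⟩
    obtain ⟨h3, h4⟩ := h1 z (hρr hz) hzA
    have h5 := hM z hz
    rw [Real.norm_eq_abs] at h5
    have h6 : -M ≤ u z := (abs_le.1 h5).1
    have h7 : (0 : ℝ) < ‖f z‖ ^ 2 := by positivity
    rw [Complex.normSq_eq_norm_sq, ← Real.exp_log h7, ← h4]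
    exact Real.exp_le_exp.2 h6
  obtain ⟨M, hM⟩ := key hu h1
  obtain ⟨M', hM'⟩ := key hv h2
  have hlog : ∀ {f : C2 → ℂ} {u : C2 → ℝ} {A : Set C2},
      (∀ z ∈ ball p r, z ∉ A → f z ≠ 0 ∧ u z = Real.log (‖f z‖ ^ 2)) → ∀ z ∈ ball p r, z ∉ A →
      (u z : ℂ) = ((Real.log (Complex.normSq (f z)) : ℝ) : ℂ) := by
    intro f u A h1 z hz hzA
    rw [(h1 z hz hzA).2, Complex.normSq_eq_norm_sq]
  -- pluriharmonicity off `A`
  have hplu : ∀ {f : C2 → ℂ} {u : C2 → ℝ} {A : Set C2}, DifferentiableOn ℂ f (ball p r) →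
      IsOpen (ball p r \ A) →
      (∀ z ∈ ball p r, z ∉ A → f z ≠ 0 ∧ u z = Real.log (‖f z‖ ^ 2)) → ∀ z ∈ ball p r, z ∉ A →
      ∀ i j, lv i j (fun z => (u z : ℂ)) z = 0 := by
    intro f u A hf hA h1 z hz hzA i j
    have : (fun z => (u z : ℂ)) =ᶠ[𝓝 z] fun y => ((Real.log (Complex.normSq (f y)) : ℝ) : ℂ) := by
      filter_upwards [hA.mem_nhds ⟨hz, hzA⟩] with y hy
      exact hlog h1 y hy.1 hy.2
    rw [lv_congr this, lv_log_normSq (eventually_hol isOpen_ball hf hz) (h1 z hz hzA).1]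
  have hzero : ∀ z ∈ ball p r, z ∉ closedBall p (r / 2) →
      MA (fun z => (u z : ℂ)) (fun z => (v z : ℂ)) z = 0 := by
    intro z hz hzK
    by_cases hzA : z ∈ A
    · exact MA_zero_right (hplu hg hA' h2 z hz fun h => hzK (hAA z hz hzA h))
    · exact MA_zero_left (hplu hf hA h1 z hz hzA)
  have hres : ∫ z in ball p r, MA (fun z => (u z : ℂ)) (fun z => (v z : ℂ)) z =
      ∫ z in ball p ρ, MA (fun z => (u z : ℂ)) (fun z => (v z : ℂ)) z :=
    setIntegral_eq_of_subset_of_forall_sdiff_eq_zero measurableSet_ball hbρ fun z hz =>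
      hzero z hz.1 fun h => hz.2 (hKρ h)
  rw [hres]
  have hopen : ∀ {A : Set C2}, IsOpen (ball p r \ A) → IsOpen (ball p ρ \ A) := by
    intro A hA
    have : ball p ρ \ A = ball p ρ ∩ (ball p r \ A) := by
      ext z
      constructor
      · rintro ⟨h1, h2⟩
        exact ⟨h1, hbρ h1, h2⟩
      · rintro ⟨h1, -, h2⟩
        exact ⟨h1, h2⟩
    rw [this]
    exact isOpen_ball.inter hA
  have hlim : ∀ lam : ℝ, lam < 1 → lam * (a * b * Real.pi ^ 2) ≤
      (∫ z in ball p ρ, MA (fun z => (u z : ℂ)) (fun z => (v z : ℂ)) z).re := by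
    intro lam hlam
    obtain ⟨T₀, hT₀⟩ := H561.loc_mult_MA hρ0 isOpen_ball hρr hf hg
      (fun z hz => h0 z (hρr hz)) hfO hgO hlam
    set T : ℝ := max (T₀ + 1) (max (M + 1) (M' + 1)) with hT
    have hT1 : T₀ < T := lt_of_lt_of_le (by linarith) (le_max_left _ _)
    have hT2 : M + 1 ≤ T := (le_max_left _ _).trans (le_max_right _ _)
    have hT3 : M' + 1 ≤ T := (le_max_right _ _).trans (le_max_right _ _)
    have hG : CutLog (H561.KT T) (Real.exp (1 - T)) :=
      ⟨Real.exp_pos _, H561.KT_contDiff T, fun x hx => H561.KT_eq_log hx⟩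
    have hind := indep (U := ball p ρ) (K := closedBall p (r / 2)) (A := A) (A' := A') isOpen_ball
      (isCompact_closedBall _ _) hKρ (hf.mono hbρ) (hg.mono hbρ) (huc.mono hbρ) (hvc.mono hbρ) hG
      (hopen hA) (hopen hA')
      (fun z hz hzA => ⟨(Real.exp_le_exp.2 (by linarith)).trans
        (hM z (ball_subset_closedBall hz) hzA), hlog h1 z (hbρ hz) hzA⟩)
      (fun z hz hzA => ⟨(Real.exp_le_exp.2 (by linarith)).trans
        (hM' z (ball_subset_closedBall hz) hzA), hlog h2 z (hbρ hz) hzA⟩)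
      (fun z hz => hAA z (hbρ hz))
    rw [hind.2.2]
    exact (hT₀ T hT1).2.2.2
  by_contra hcon
  push Not at hcon
  set I := (∫ z in ball p ρ, MA (fun z => (u z : ℂ)) (fun z => (v z : ℂ)) z).re with hI
  have hpos : 0 < Real.pi ^ 2 * (a * b : ℝ) := by
    by_contra h
    have h3 : Real.pi ^ 2 * (a * b : ℝ) = 0 :=
      le_antisymm (not_lt.1 h) (by positivity)
    have h4 := hlim 0 one_pos
    rw [zero_mul] at h4
    linarith
  have h5 := hlim ((I / (Real.pi ^ 2 * (a * b)) + 1) / 2) (by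
    have : I / (Real.pi ^ 2 * (a * b)) < 1 := by
      rw [div_lt_one hpos]; exact hcon
    linarith)
  have h6 : (I / (Real.pi ^ 2 * (a * b)) + 1) / 2 * (a * b * Real.pi ^ 2) =
      (I + Real.pi ^ 2 * (a * b)) / 2 := by
    rw [show (a * b * Real.pi ^ 2 : ℝ) = Real.pi ^ 2 * (a * b) by ring]
    generalize Real.pi ^ 2 * (a * b : ℝ) = P at hpos
    have : P ≠ 0 := hpos.ne'
    field_simp
  rw [h6] at h5
  linarith

end Vale.Agent.P290.H220
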